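import Crest.Agent.WLM.TM2Run

/-!
# Row 290, module B: `FinTM2` machines are simulated by structured programs (B2), final form
-/

set_option autoImplicit false

namespace Crest.Agent.WLM

open Crest.Agent.CHR (Prog St Ev ini mv)
open Crest.Agent.CHR.Prog
open Turing

/-- the set of symbols which may occur on the stacks of `tm` -/
def occAll (tm : FinTM2) : Set (Σ k, tm.Γ k) :=
  (⋃ l : tm.Λ, occ (tm.m l)) ∪ Set.range (fun a : tm.Γ tm.k₀ => (⟨tm.k₀, a⟩ : Σ k, tm.Γ k))

theorem occAll_finite (tm : FinTM2) : (occAll tm).Finite := by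
  have : Finite tm.Λ := @Finite.of_fintype _ tm.ΛFin
  have : Finite tm.σ := @Finite.of_fintype _ tm.σFin
  have : Finite (tm.Γ tm.k₀) := @Finite.of_fintype _ tm.Γk₀Fin
  exact (Set.finite_iUnion fun l => occ_finite (tm.m l)).union (Set.finite_range _)

open Classical in
noncomputable def symOf {K : Type} {Γ : K → Type} (F : List (Σ k, Γ k)) (k : K) (i : ℕ) :
    Option (Γ k) :=
  match F[i]? with
  | some a => if h : a.1 = k then some (h ▸ a.2) else none
  | none => none

/-- register of a stack -/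
noncomputable def regOf (tm : FinTM2) (k : tm.K) : ℕ := 1 + (@Fintype.equivFin tm.K tm.kFin k : ℕ)

noncomputable def cardOf (tm : FinTM2) : ℕ :=
  @Fintype.card (tm.Λ × tm.σ) (@instFintypeProd _ _ tm.ΛFin tm.σFin)

noncomputable def eqOf (tm : FinTM2) : tm.Λ × tm.σ ≃ Fin (cardOf tm) :=
  @Fintype.equivFin (tm.Λ × tm.σ) (@instFintypeProd _ _ tm.ΛFin tm.σFin)

noncomputable def symsOf (tm : FinTM2) : List (Σ k, tm.Γ k) := (occAll_finite tm).toFinset.toList

theorem mem_symsOf (tm : FinTM2) {a : Σ k, tm.Γ k} (h : a ∈ occAll tm) : a ∈ symsOf tm := by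
  simpa [symsOf] using h

open Classical in
/-- coding data of a machine -/
noncomputable def codOf (tm : FinTM2) : Cod tm.K tm.Γ tm.Λ tm.σ where
  reg := regOf tm
  m := (symsOf tm).length
  idx := fun a => (symsOf tm).idxOf a
  sym := symOf (symsOf tm)
  M := cardOf tm
  si := fun l v => (eqOf tm (l, v) : ℕ)
  ist := fun j => if h : j < cardOf tm then some ((eqOf tm).symm ⟨j, h⟩) else none
  Occ := occAll tm
  reg_inj := by
    intro a b h
    have h' : (1 + (@Fintype.equivFin tm.K tm.kFin a : ℕ)) =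
      1 + (@Fintype.equivFin tm.K tm.kFin b : ℕ) := h
    exact (@Fintype.equivFin tm.K tm.kFin).injective (Fin.ext (by omega))
  reg_ne := fun k => by unfold regOf; omega
  idx_lt := fun a ha => List.idxOf_lt_length_of_mem (mem_symsOf tm ha)
  sym_idx := fun k a ha => by
    unfold symOf
    rw [List.getElem?_idxOf (mem_symsOf tm ha)]
    simp
  si_lt := fun l v => (eqOf tm (l, v)).2
  ist_si := fun l v => by
    rw [dif_pos (eqOf tm (l, v)).2]
    exact congrArg some ((eqOf tm).symm_apply_apply (l, v))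

/-- the auxiliary register -/
def auxOf (tm : FinTM2) : ℕ := @Fintype.card tm.K tm.kFin + 1

theorem aux_ne (tm : FinTM2) (k : tm.K) : auxOf tm ≠ (codOf tm).reg k := by
  have h1 : (codOf tm).reg k = 1 + (@Fintype.equivFin tm.K tm.kFin k : ℕ) := rfl
  have h2 := (@Fintype.equivFin tm.K tm.kFin k).2
  rw [h1]
  unfold auxOf
  omega

theorem uc_ne_nil (i : ℕ) : uc i ≠ [] := by simp [uc]

theorem sc_length_ge {K : Type} {Γ : K → Type} {Λ σ : Type} (D : Cod K Γ Λ σ) (k : K)
    (l : List (Γ k)) : l.length ≤ (sc D k l).length := by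
  induction l with
  | nil => simp
  | cons a l ih =>
    have h1 : sc D k (a :: l) = uc (D.idx ⟨k, a⟩) ++ sc D k l := by simp [sc]
    have h2 : 0 < (uc (D.idx ⟨k, a⟩)).length := List.length_pos_of_ne_nil (uc_ne_nil _)
    rw [h1, List.length_append, List.length_cons]
    omega

theorem initList_stk_self (tm : FinTM2) (s : List (tm.Γ tm.k₀)) : (initList tm s).stk tm.k₀ = s := by
  simp [initList]

theorem initList_stk_ne (tm : FinTM2) (s : List (tm.Γ tm.k₀)) {k : tm.K} (h : k ≠ tm.k₀) :
    (initList tm s).stk k = [] := by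
  simp [initList, h]

theorem haltList_stk_self (tm : FinTM2) (s : List (tm.Γ tm.k₁)) : (haltList tm s).stk tm.k₁ = s := by
  simp [haltList]

theorem haltList_stk_ne (tm : FinTM2) (s : List (tm.Γ tm.k₁)) {k : tm.K} (h : k ≠ tm.k₁) :
    (haltList tm s).stk k = [] := by
  simp [haltList, h]

theorem b2_arith (A T X m M t2 si t4 t5 O n : ℕ) (ht2 : t2 ≤ A * (m + 3) + 1) (hsi : si < M)
    (ht4 : t4 ≤ n * X + 1) (hn : n ≤ T) (ht5 : t5 ≤ O * (2 * m + 2) + 1)
    (hO : O ≤ 4 * A + 1 + (t2 + (si + 1 + t4))) :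
    4 * A + 1 + (t2 + (si + 1 + (t4 + (t5 + (4 * O + 1))))) ≤
      (((m + 8) + X + M + 4) * (2 * m + 7) + 2) * T + (((m + 8) + X + M + 4) * (2 * m + 7) + 2) * A +
        (((m + 8) + X + M + 4) * (2 * m + 7) + 2) := by
  have ht4' : t4 ≤ T * X + 1 := ht4.trans (Nat.add_le_add_right (Nat.mul_le_mul_right X hn) 1)
  have hS4le : 4 * A + 1 + (t2 + (si + 1 + t4)) ≤ A * (m + 7) + T * X + M + 3 := by
    have : A * (m + 7) = A * (m + 3) + 4 * A := by ring
    omega
  have y1 : m + 7 ≤ (m + 8) + X + M + 4 := by omega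
  have y2 : X ≤ (m + 8) + X + M + 4 := by omega
  have y3 : M + 3 ≤ (m + 8) + X + M + 4 := by omega
  generalize (m + 8) + X + M + 4 = Y at y1 y2 y3 ⊢
  generalize hS4 : 4 * A + 1 + (t2 + (si + 1 + t4)) = S4 at hO hS4le
  have e1 : 4 * A + 1 + (t2 + (si + 1 + (t4 + (t5 + (4 * O + 1))))) = S4 + t5 + 4 * O + 1 := by
    rw [← hS4]; ring
  rw [e1]
  have e2 : S4 + t5 + 4 * O + 1 ≤ S4 * (2 * m + 7) + 2 := by
    have : O * (2 * m + 2) ≤ S4 * (2 * m + 2) := Nat.mul_le_mul_right _ hO
    have e3 : S4 * (2 * m + 7) = S4 * (2 * m + 2) + 4 * S4 + S4 := by ring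
    omega
  refine e2.trans ?_
  have e4 : S4 * (2 * m + 7) ≤ (A * (m + 7) + T * X + M + 3) * (2 * m + 7) :=
    Nat.mul_le_mul_right _ hS4le
  have b1 := Nat.mul_le_mul_right (2 * m + 7) y1
  have b2 := Nat.mul_le_mul_right (2 * m + 7) y2
  have b3 := Nat.mul_le_mul_right (2 * m + 7) y3
  have e6 : (A * (m + 7) + T * X + M + 3) * (2 * m + 7) =
      (X * (2 * m + 7)) * T + ((m + 7) * (2 * m + 7)) * A + (M + 3) * (2 * m + 7) := by
    ring
  rw [e6] at e4
  generalize Y * (2 * m + 7) = Z at b1 b2 b3 ⊢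
  generalize (m + 7) * (2 * m + 7) = q1 at b1 e4
  generalize X * (2 * m + 7) = q2 at b2 e4
  generalize (M + 3) * (2 * m + 7) = q3 at b3 e4
  have c1 := Nat.mul_le_mul_right A b1
  have c2 := Nat.mul_le_mul_right T b2
  have d1 : (Z + 2) * T + (Z + 2) * A + (Z + 2) = Z * T + Z * A + Z + 2 * T + 2 * A + 2 := by ring
  rw [d1]
  omega

/-- (B2) A machine computing `f` in time `M.time` is simulated by a structured program with
constant factor overhead. -/
theorem prog_of_tm2 {α β : Type} {ea : α → List Bool} {eb : β → List Bool} {f : α → β}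
    (M : TM2ComputableInTime ea eb f) :
    ∃ (P : Prog) (C : ℕ), ∀ a, ∃ t ≤ C * M.time (ea a).length + C * (ea a).length + C,
      Ev P (ini (ea a)) t (ini (eb (f a))) := by
  set tm := M.tm with htm
  have := tm.ΛFin
  set D := codOf tm with hD
  set aux := auxOf tm with haux
  have haux0 : aux ≠ 0 := by rw [haux]; unfold auxOf; omega
  have hauxr : ∀ k, aux ≠ D.reg k := aux_ne tm
  set ii : Bool → ℕ := fun b => D.idx ⟨tm.k₀, M.inputAlphabet.invFun b⟩ with hii
  obtain ⟨B, hB⟩ : ∃ B, ∀ l, dp (tm.m l) ≤ B := by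
    refine ⟨∑ l, dp (tm.m l), fun l => ?_⟩
    exact Finset.single_le_sum (f := fun l => dp (tm.m l)) (fun _ _ => Nat.zero_le _)
      (Finset.mem_univ l)
  set X := B * (3 * D.m + D.M + 5) + 2 * D.M + 1 with hX
  let P : Prog := .seq (mv 0 aux) (.seq (conv aux (D.reg tm.k₀) ii) (.seq
    (pushU 0 (D.si tm.main tm.initialState)) (.seq (.loop 0 (body D tm.m))
      (.seq (outp D aux tm.k₁ M.outputAlphabet) (mv aux 0)))))
  refine ⟨P, ((D.m + 8) + X + D.M + 4) * (2 * D.m + 7) + 2, fun a => ?_⟩
  set z := ea a with hz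
  obtain ⟨⟨n, hn⟩, hnle⟩ := M.outputsFun a
  set out := List.map M.outputAlphabet.invFun (eb (f a)) with hout
  have hn' : (flip bind (TM2.step tm.m))^[n]
      (some (initList tm (List.map M.inputAlphabet.invFun z))) = some (haltList tm out) := hn
  -- step 1
  have hd0 : (ini z) 0 = z := by simp [ini]
  have h1 := CHR.Ev.mv (r := 0) (r' := aux) haux0.symm (ini z)
  rw [hd0] at h1
  have haux_ini : (ini z) aux = [] := by simp [ini, haux0]
  rw [haux_ini, List.append_nil] at h1
  set s1 := Function.update (Function.update (ini z) 0 []) aux z.reverse with hs1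
  -- step 2
  have hmem0 : ∀ b, (⟨tm.k₀, M.inputAlphabet.invFun b⟩ : Σ k, tm.Γ k) ∈ D.Occ :=
    fun b => Or.inr ⟨_, rfl⟩
  obtain ⟨t2, ht2, h2⟩ := ev_conv (hauxr tm.k₀) ii D.m (fun b => D.idx_lt _ (hmem0 b)) s1
  have hs1aux : s1 aux = z.reverse := by rw [hs1, Function.update_self]
  have hs1r : ∀ k, s1 (D.reg k) = [] := by
    intro k
    rw [hs1, Function.update_of_ne (hauxr k).symm, Function.update_of_ne (D.reg_ne k)]
    simp [ini, D.reg_ne k]
  rw [hs1aux, List.reverse_reverse, hs1r, List.append_nil] at h2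
  rw [hs1aux, List.length_reverse] at ht2
  set s2 := Function.update (Function.update s1 aux []) (D.reg tm.k₀)
    (z.flatMap fun b => uc (ii b)) with hs2
  -- step 3
  have h3 := ev_pushU 0 (D.si tm.main tm.initialState) s2
  have hs20 : s2 0 = [] := by
    rw [hs2, Function.update_of_ne (D.reg_ne _).symm, Function.update_of_ne haux0.symm, hs1,
      Function.update_of_ne haux0.symm, Function.update_self]
  rw [hs20, List.append_nil] at h3
  set s3 := Function.update s2 0 (uc (D.si tm.main tm.initialState)) with hs3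
  -- relation
  have hR3 : Rel D (initList tm (List.map M.inputAlphabet.invFun z)).stk s3 := by
    refine ⟨fun k => ?_, fun k a' ha' => ?_, fun r hr hr' => ?_⟩
    · rw [hs3, Function.update_of_ne (D.reg_ne k)]
      by_cases hk : k = tm.k₀
      · subst hk
        rw [initList_stk_self, hs2, Function.update_self]
        simp [sc, List.flatMap_map, hii]
      · rw [initList_stk_ne tm _ hk, hs2, Function.update_of_ne (fun e => hk (D.reg_inj e)),
          Function.update_of_ne (hauxr k).symm, hs1r]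
        rfl
    · by_cases hk : k = tm.k₀
      · subst hk
        exact Or.inr ⟨a', rfl⟩
      · rw [initList_stk_ne tm _ hk] at ha'
        simp at ha'
    · rw [hs3, Function.update_of_ne hr, hs2, Function.update_of_ne (hr' _)]
      by_cases hra : r = aux
      · subst hra; rw [Function.update_self]
      · rw [Function.update_of_ne hra, hs1, Function.update_of_ne hra, Function.update_of_ne hr]
        simp [ini, hr]
  have h03 : s3 0 = lc D (initList tm (List.map M.inputAlphabet.invFun z)).l
      (initList tm (List.map M.inputAlphabet.invFun z)).var := by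
    rw [hs3, Function.update_self]; rfl
  -- step 4
  obtain ⟨t4, ht4, s4, h4, hR4, h04⟩ := ev_run D tm.m
    (fun l => (Set.subset_iUnion (fun l => occ (tm.m l)) l).trans Set.subset_union_left) B hB n _ _
    hn' rfl s3 hR3 h03
  -- step 5
  have hout_sc : s4 (D.reg tm.k₁) = sc D tm.k₁ out := by
    rw [hR4.stk, haltList_stk_self]
  obtain ⟨t5, ht5, h5⟩ := ev_outp D (hauxr tm.k₁) M.outputAlphabet out
    (fun a' ha' => hR4.mem tm.k₁ a' (by rw [haltList_stk_self]; exact ha')) s4 hout_sc
  have hs4aux : s4 aux = [] := hR4.rest aux haux0 hauxr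
  have hmap : out.map M.outputAlphabet = eb (f a) := by
    rw [hout, List.map_map]
    simp
  rw [hs4aux, List.append_nil, hmap] at h5
  set s5 := Function.update (Function.update s4 (D.reg tm.k₁) []) aux (eb (f a)).reverse with hs5
  -- step 6
  have h6 := CHR.Ev.mv (r := aux) (r' := 0) haux0 s5
  have hs5aux : s5 aux = (eb (f a)).reverse := by rw [hs5, Function.update_self]
  have hs50 : s5 0 = [] := by
    rw [hs5, Function.update_of_ne haux0.symm, Function.update_of_ne (D.reg_ne _).symm, h04]
  rw [hs5aux, List.reverse_reverse, hs50, List.append_nil, List.length_reverse] at h6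
  have hfin : Function.update (Function.update s5 aux []) 0 (eb (f a)) = ini (eb (f a)) := by
    funext r
    by_cases hr : r = 0
    · subst hr; simp [ini]
    · rw [Function.update_of_ne hr]
      have hini : ini (eb (f a)) r = [] := by simp [ini, hr]
      rw [hini]
      by_cases hra : r = aux
      · subst hra; rw [Function.update_self]
      · rw [Function.update_of_ne hra, hs5, Function.update_of_ne hra]
        by_cases hrk : r = D.reg tm.k₁
        · subst hrk; rw [Function.update_self]
        · rw [Function.update_of_ne hrk]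
          by_cases hk : ∃ k, r = D.reg k
          · obtain ⟨k, rfl⟩ := hk
            rw [hR4.stk, haltList_stk_ne tm _ (fun e => hrk (by rw [e]))]
            rfl
          · exact hR4.rest r hr (fun k e => hk ⟨k, e⟩)
  rw [hfin] at h6
  -- total
  have h14 := Ev.seq h1 (Ev.seq h2 (Ev.seq h3 h4))
  have hlen := h14.length_le (D.reg tm.k₁)
  have hini1 : (ini z) (D.reg tm.k₁) = [] := by simp [ini, D.reg_ne]
  rw [hini1, hout_sc, List.length_nil] at hlen
  have hlen2 := sc_length_ge D tm.k₁ out
  have hlen3 : (eb (f a)).length = out.length := by rw [hout, List.length_map]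
  refine ⟨_, ?_, Ev.seq h1 (Ev.seq h2 (Ev.seq h3 (Ev.seq h4 (Ev.seq h5 h6))))⟩
  have hsi := D.si_lt tm.main tm.initialState
  have hO : out.length ≤ 4 * z.length + 1 + (t2 + (D.si tm.main tm.initialState + 1 + t4)) := by
    omega
  rw [hlen3]
  exact b2_arith z.length (M.time z.length) X D.m D.M t2 (D.si tm.main tm.initialState) t4 t5
    out.length n ht2 hsi ht4 hnle ht5 hO

/-- (B2) + (B1): a machine deciding `g` gives a table machine. -/
theorem tab_of_tm2 {α : Type} {ea : α → List Bool} {g : α → Bool}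
    (M : TM2ComputableInTime ea Computability.encodeBool g) :
    ∃ (T : Tab) (C : ℕ), T.Ok ∧ ∀ a,
      (g a = true → Tab.Acc T (ea a) (C * M.time (ea a).length + C * (ea a).length + C)) ∧
      (g a = false → ∀ t', ¬ Tab.Acc T (ea a) t') := by
  obtain ⟨P, C, hP⟩ := prog_of_tm2 M
  refine ⟨tabOf P, 3 * C + 7, tabOf_ok P, fun a => ?_⟩
  obtain ⟨t, ht, h⟩ := hP a
  have h' : Ev P (ini (ea a)) t (ini [g a]) := h
  obtain ⟨h1, h2⟩ := tabOf_spec h'
  refine ⟨fun hg => (h1 hg).mono ?_, h2⟩
  generalize M.time (ea a).length = T at *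
  generalize (ea a).length = A at *
  nlinarith

end Crest.Agent.WLM
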