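import Crest.Agent.CHR.Prog

/-!
# Row 290, module B: table machines, compilation of structured programs

A table machine is a list of instructions (labels = positions) over finitely many Boolean stacks.
`Tab.Acc T z t`: on input `z` (register `0`, first bit on top) the machine is in the accepting
label `T.length` at time `t`.
-/

set_option autoImplicit false

namespace Crest.Agent.WLM

open Crest.Agent.CHR (Prog St Ev ini)
open Crest.Agent.CHR.Prog

/-- Instructions: push a bit and go to `l`; pop: go to `le` if the stack is empty, otherwise remove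
the top bit and go to `lf` / `lt` if it was `false` / `true`. -/
inductive TI : Type
  | push (r : ℕ) (b : Bool) (l : ℕ)
  | pop (r : ℕ) (le lf lt : ℕ)
  deriving DecidableEq, Repr

/-- a table machine: label = position; labels `≥ T.length` are halted -/
abbrev Tab := List TI

structure Cf where
  pc : ℕ
  stk : St

def TI.exec (i : TI) (s : St) : Cf :=
  match i with
  | .push r b l => ⟨l, Function.update s r (b :: s r)⟩
  | .pop r le lf lt =>
    match s r with
    | [] => ⟨le, s⟩
    | false :: x => ⟨lf, Function.update s r x⟩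
    | true :: x => ⟨lt, Function.update s r x⟩

def Tab.step (T : Tab) (c : Cf) : Cf :=
  match T[c.pc]? with
  | none => c
  | some i => i.exec c.stk

/-- configuration at time `t` on input `z` -/
def Tab.cf (T : Tab) (z : List Bool) (t : ℕ) : Cf := (Tab.step T)^[t] ⟨0, ini z⟩

/-- acceptance at time `t`: the machine is at the label `T.length` -/
def Tab.Acc (T : Tab) (z : List Bool) (t : ℕ) : Prop := (Tab.cf T z t).pc = T.length

/-- registers and labels of an instruction are bounded by `L` -/
def TI.Ok (L : ℕ) : TI → Prop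
  | .push r _ l => r < L ∧ l ≤ L + 1
  | .pop r le lf lt => r < L ∧ le ≤ L + 1 ∧ lf ≤ L + 1 ∧ lt ≤ L + 1

def Tab.Ok (T : Tab) : Prop := 0 < T.length ∧ ∀ i ∈ T, TI.Ok T.length i

theorem Tab.step_halted {T : Tab} {c : Cf} (h : T.length ≤ c.pc) : Tab.step T c = c := by
  unfold Tab.step
  rw [List.getElem?_eq_none h]

theorem Tab.iter_halted {T : Tab} {c : Cf} (h : T.length ≤ c.pc) (n : ℕ) :
    (Tab.step T)^[n] c = c := by
  induction n with
  | zero => rfl
  | succ n ih => rw [Function.iterate_succ_apply, Tab.step_halted h, ih]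

theorem Tab.Acc.mono {T : Tab} {z : List Bool} {t t' : ℕ} (h : Tab.Acc T z t) (htt : t ≤ t') :
    Tab.Acc T z t' := by
  obtain ⟨d, rfl⟩ := Nat.exists_eq_add_of_le htt
  unfold Tab.Acc Tab.cf at *
  rw [Nat.add_comm, Function.iterate_add_apply, Tab.iter_halted (le_of_eq h.symm)]
  exact h

/-- once halted at another label, never accepting -/
theorem Tab.not_Acc_of_halted {T : Tab} {z : List Bool} {t : ℕ} (h : T.length < (Tab.cf T z t).pc)
    (t' : ℕ) : ¬ Tab.Acc T z t' := by
  intro h'
  have h1 := h'.mono (le_max_right t t')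
  obtain ⟨d, hd⟩ := Nat.exists_eq_add_of_le (le_max_left t t')
  unfold Tab.Acc at h1
  rw [hd] at h1
  unfold Tab.cf at h h1
  rw [Nat.add_comm, Function.iterate_add_apply, Tab.iter_halted h.le] at h1
  omega

/-! ## Compilation of structured programs -/

/-- number of instructions -/
def sz : Prog → ℕ
  | .skip => 0
  | .push _ _ => 1
  | .pop _ => 1
  | .seq P Q => sz P + sz Q
  | .case _ P Q R => 3 + (sz P + (sz Q + sz R))
  | .loop _ P => 3 + sz P

/-- entry label of the code of `P` placed at `o`, with exit label `e` -/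
def ent : Prog → ℕ → ℕ → ℕ
  | .skip, _, e => e
  | .push _ _, o, _ => o
  | .pop _, o, _ => o
  | .seq P Q, o, e => ent P o (ent Q (o + sz P) e)
  | .case _ _ _ _, o, _ => o
  | .loop _ _, o, _ => o

/-- the code of `P` placed at `o`, with exit label `e` -/
def code : Prog → ℕ → ℕ → List TI
  | .skip, _, _ => []
  | .push r b, _, e => [.push r b e]
  | .pop r, _, e => [.pop r e e e]
  | .seq P Q, o, e => code P o (ent Q (o + sz P) e) ++ code Q (o + sz P) e
  | .case r P Q R, o, e =>
    [.pop r (ent P (o + 3) e) (o + 1) (o + 2), .push r false (ent Q (o + 3 + sz P) e),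
      .push r true (ent R (o + 3 + sz P + sz Q) e)] ++
      (code P (o + 3) e ++ (code Q (o + 3 + sz P) e ++ code R (o + 3 + sz P + sz Q) e))
  | .loop r P, o, e =>
    [.pop r e (o + 1) (o + 2), .push r false (ent P (o + 3) o), .push r true (ent P (o + 3) o)] ++
      code P (o + 3) o

@[simp] theorem code_length (P : Prog) (o e : ℕ) : (code P o e).length = sz P := by
  induction P generalizing o e with
  | skip => rfl
  | push => rfl
  | pop => rfl
  | seq P Q ihP ihQ => simp [code, sz, ihP, ihQ]
  | case r P Q R ihP ihQ ihR => simp [code, sz, ihP, ihQ, ihR]; omega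
  | loop r P ih => simp [code, sz, ih]; omega

/-- the list `l` is placed at position `o` of the table -/
def Pl (T : Tab) (o : ℕ) (l : List TI) : Prop := ∀ (i : ℕ) (x : TI), l[i]? = some x → T[o + i]? = some x

theorem Pl.left {T : Tab} {o : ℕ} {l l' : List TI} (h : Pl T o (l ++ l')) : Pl T o l := by
  intro i x hx
  apply h i x
  have hi : i < l.length := by
    by_contra hc
    rw [List.getElem?_eq_none (by omega)] at hx
    cases hx
  rw [List.getElem?_append_left hi, hx]

theorem Pl.right {T : Tab} {o o' : ℕ} {l l' : List TI} (h : Pl T o (l ++ l'))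
    (ho : o + l.length = o') : Pl T o' l' := by
  intro i x hx
  have := h (l.length + i) x (by rw [List.getElem?_append_right (by omega)]; simpa using hx)
  rw [← ho]
  rwa [Nat.add_assoc]

theorem Pl.step {T : Tab} {o i : ℕ} {l : List TI} {x : TI} (h : Pl T o l) (hx : l[i]? = some x)
    (s : St) : Tab.step T ⟨o + i, s⟩ = x.exec s := by
  unfold Tab.step
  rw [h i x hx]

theorem push_pop_self {s : St} {r : ℕ} {b : Bool} {x : List Bool} (h : s r = b :: x) :
    Function.update (Function.update s r x) r (b :: Function.update s r x r) = s := by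
  rw [Function.update_self, Function.update_idem, ← h, Function.update_eq_self]

/-- entering a nonempty register test: two steps -/
theorem enter {T : Tab} {o e l1 l2 r : ℕ} {rest : List TI} {s : St}
    (hp : Pl T o ([.pop r e (o + 1) (o + 2), .push r false l1, .push r true l2] ++ rest)) :
    (s r = [] → (Tab.step T)^[1] ⟨o, s⟩ = ⟨e, s⟩) ∧
    (∀ x, s r = false :: x → (Tab.step T)^[2] ⟨o, s⟩ = ⟨l1, s⟩) ∧
    (∀ x, s r = true :: x → (Tab.step T)^[2] ⟨o, s⟩ = ⟨l2, s⟩) := by
  have h0 : ∀ u, Tab.step T ⟨o, u⟩ = (TI.pop r e (o + 1) (o + 2)).exec u := fun u =>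
    hp.step (i := 0) (by simp) u
  have h1 : ∀ u, Tab.step T ⟨o + 1, u⟩ = (TI.push r false l1).exec u := fun u =>
    hp.step (i := 1) (by simp) u
  have h2 : ∀ u, Tab.step T ⟨o + 2, u⟩ = (TI.push r true l2).exec u := fun u =>
    hp.step (i := 2) (by simp) u
  refine ⟨fun h => ?_, fun x h => ?_, fun x h => ?_⟩
  · rw [Function.iterate_one, h0]; simp [TI.exec, h]
  · rw [show (2 : ℕ) = 1 + 1 from rfl, Function.iterate_add_apply, Function.iterate_one, h0]
    have : (TI.pop r e (o + 1) (o + 2)).exec s = ⟨o + 1, Function.update s r x⟩ := by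
      simp [TI.exec, h]
    rw [this, h1]
    show Cf.mk l1 _ = _
    rw [push_pop_self h]
  · rw [show (2 : ℕ) = 1 + 1 from rfl, Function.iterate_add_apply, Function.iterate_one, h0]
    have : (TI.pop r e (o + 1) (o + 2)).exec s = ⟨o + 2, Function.update s r x⟩ := by
      simp [TI.exec, h]
    rw [this, h2]
    show Cf.mk l2 _ = _
    rw [push_pop_self h]

/-- SIMULATION: the code of `P` runs from its entry to its exit. -/
theorem run_code {T : Tab} {P : Prog} {s s' : St} {t : ℕ} (h : Ev P s t s') :
    ∀ {o e : ℕ}, Pl T o (code P o e) →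
      ∃ n ≤ 3 * t, (Tab.step T)^[n] ⟨ent P o e, s⟩ = ⟨e, s'⟩ := by
  induction h with
  | skip s => intro o e _; exact ⟨0, by omega, rfl⟩
  | push r b s =>
    intro o e hp
    refine ⟨1, by omega, ?_⟩
    rw [Function.iterate_one]
    have := hp.step (i := 0) (x := .push r b e) (by simp [code]) s
    simpa [ent, TI.exec] using this
  | pop r s =>
    intro o e hp
    refine ⟨1, by omega, ?_⟩
    rw [Function.iterate_one]
    have := hp.step (i := 0) (x := .pop r e e e) (by simp [code]) s
    rw [Nat.add_zero] at this
    simp only [ent]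
    rw [this]
    cases hs : s r with
    | nil =>
      have h1 : Function.update s r [] = s := by
        rw [← hs]; exact Function.update_eq_self r s
      simp [TI.exec, hs, h1]
    | cons b x => cases b <;> simp [TI.exec, hs]
  | seq h h' ih ih' =>
    intro o e hp
    obtain ⟨n, hn, e1⟩ := ih hp.left
    obtain ⟨n', hn', e2⟩ := ih' (hp.right (by simp))
    refine ⟨n' + n, by omega, ?_⟩
    rw [Function.iterate_add_apply]
    simp only [ent]
    rw [e1, e2]
  | case_nil hr h ih =>
    intro o e hp
    obtain ⟨n, hn, e1⟩ := ih ((hp.right (o' := o + 3) (by simp)).left)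
    refine ⟨n + 1, by omega, ?_⟩
    rw [Function.iterate_add_apply]
    simp only [ent]
    rw [(enter hp).1 hr, e1]
  | case_false hr h ih =>
    intro o e hp
    obtain ⟨n, hn, e1⟩ := ih (((hp.right (o' := o + 3) (by simp)).right (by simp)).left)
    refine ⟨n + 2, by omega, ?_⟩
    rw [Function.iterate_add_apply]
    simp only [ent]
    rw [(enter hp).2.1 _ hr, e1]
  | case_true hr h ih =>
    intro o e hp
    obtain ⟨n, hn, e1⟩ := ih (((hp.right (o' := o + 3) (by simp)).right rfl).right (by simp))
    refine ⟨n + 2, by omega, ?_⟩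
    rw [Function.iterate_add_apply]
    simp only [ent]
    rw [(enter hp).2.2 _ hr, e1]
  | loop_done hr =>
    intro o e hp
    refine ⟨1, by omega, ?_⟩
    simp only [ent]
    rw [(enter hp).1 hr]
  | @loop_step r P s s1 s2 t1 t2 hr h h' ih ih' =>
    intro o e hp
    obtain ⟨n, hn, e1⟩ := ih (hp.right (o' := o + 3) (by simp))
    obtain ⟨n', hn', e2⟩ := ih' hp
    refine ⟨n' + n + 2, by omega, ?_⟩
    simp only [ent] at e1 e2 ⊢
    rw [Function.iterate_add_apply]
    cases hs : s r with
    | nil => exact absurd hs hr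
    | cons b x =>
      cases b with
      | false => rw [(enter hp).2.1 _ hs, Function.iterate_add_apply, e1, e2]
      | true => rw [(enter hp).2.2 _ hs, Function.iterate_add_apply, e1, e2]

/-! ## Well-formedness -/

theorem ent_le (P : Prog) (o e L : ℕ) (h : o + sz P ≤ L) (he : e ≤ L + 1) :
    ent P o e ≤ L + 1 := by
  induction P generalizing o e with
  | skip => exact he
  | push => simp only [ent]; omega
  | pop => simp only [ent]; omega
  | seq P Q ihP ihQ =>
    simp only [ent, sz] at *
    exact ihP _ _ (by omega) (ihQ _ _ (by omega) he)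
  | case r P Q R => simp only [ent]; omega
  | loop r P => simp only [ent]; omega

theorem code_ok (P : Prog) (o e L : ℕ) (h : o + sz P ≤ L) (he : e ≤ L + 1)
    (hr : P.maxReg < L) : ∀ i ∈ code P o e, TI.Ok L i := by
  induction P generalizing o e with
  | skip => intro i hi; simp [code] at hi
  | push r b =>
    intro i hi
    simp only [code, List.mem_singleton] at hi
    subst hi
    exact ⟨hr, he⟩
  | pop r =>
    intro i hi
    simp only [code, List.mem_singleton] at hi
    subst hi
    exact ⟨hr, he, he, he⟩
  | seq P Q ihP ihQ =>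
    simp only [Prog.maxReg, max_lt_iff, sz] at hr h
    intro i hi
    simp only [code, List.mem_append] at hi
    rcases hi with hi | hi
    · exact ihP _ _ (by omega) (ent_le _ _ _ _ (by omega) he) hr.1 i hi
    · exact ihQ _ _ (by omega) he hr.2 i hi
  | case r P Q R ihP ihQ ihR =>
    simp only [Prog.maxReg, max_lt_iff, sz] at hr h
    intro i hi
    simp only [code, List.mem_append, List.mem_cons, List.not_mem_nil, or_false] at hi
    rcases hi with (rfl | rfl | rfl) | hi | hi | hi
    · exact ⟨hr.1, ent_le _ _ _ _ (by omega) he, by omega, by omega⟩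
    · exact ⟨hr.1, ent_le _ _ _ _ (by omega) he⟩
    · exact ⟨hr.1, ent_le _ _ _ _ (by omega) he⟩
    · exact ihP _ _ (by omega) he hr.2.1 i hi
    · exact ihQ _ _ (by omega) he hr.2.2.1 i hi
    · exact ihR _ _ (by omega) he hr.2.2.2 i hi
  | loop r P ih =>
    simp only [Prog.maxReg, max_lt_iff, sz] at hr h
    intro i hi
    simp only [code, List.mem_append, List.mem_cons, List.not_mem_nil, or_false] at hi
    rcases hi with (rfl | rfl | rfl) | hi
    · exact ⟨hr.1, he, by omega, by omega⟩
    · exact ⟨hr.1, ent_le _ _ _ _ (by omega) (by omega)⟩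
    · exact ⟨hr.1, ent_le _ _ _ _ (by omega) (by omega)⟩
    · exact ih _ _ (by omega) (by omega) hr.2 i hi

/-! ## The table of a decision program -/

/-- `P` with a nonempty entry -/
def wrap (P : Prog) : Prog := .seq (.push 1 true) (.seq (.pop 1) P)

/-- length of the table of `P` -/
def tlen (P : Prog) : ℕ := sz (wrap P) + 1 + ((wrap P).maxReg + 1)

/-- the table of `P`: run `P`, then accept iff the top of register `0` is `true` -/
def tabOf (P : Prog) : Tab :=
  code (wrap P) 0 (sz (wrap P)) ++ ([.pop 0 (tlen P + 1) (tlen P + 1) (tlen P)] ++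
    List.replicate ((wrap P).maxReg + 1) (.push 0 false (tlen P + 1)))

theorem tabOf_length (P : Prog) : (tabOf P).length = tlen P := by
  simp [tabOf, tlen]; omega

theorem tabOf_ok (P : Prog) : (tabOf P).Ok := by
  refine ⟨by rw [tabOf_length]; unfold tlen; omega, ?_⟩
  rw [tabOf_length]
  intro i hi
  have h0 : 0 < tlen P := by unfold tlen; omega
  simp only [tabOf, List.mem_append, List.mem_singleton, List.mem_replicate] at hi
  rcases hi with hi | rfl | ⟨_, rfl⟩
  · exact code_ok _ _ _ _ (by unfold tlen; omega) (by unfold tlen; omega)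
      (by unfold tlen; omega) i hi
  · exact ⟨h0, by omega, by omega, by omega⟩
  · exact ⟨h0, by omega⟩

theorem Ev.wrap {P : Prog} {s s' : St} {t : ℕ} (h : Ev P s t s') : Ev (wrap P) s (1 + (1 + t)) s' := by
  refine Ev.seq (Ev.push 1 true s) (Ev.seq (Ev.pop 1 _) ?_)
  have : Function.update (Function.update s 1 (true :: s 1)) 1
      ((Function.update s 1 (true :: s 1)) 1).tail = s := by
    rw [Function.update_self, Function.update_idem]
    exact Function.update_eq_self 1 s
  rw [this]
  exact h

/-- (B1) -/
theorem tabOf_spec {P : Prog} {z : List Bool} {b : Bool} {t : ℕ} (h : Ev P (ini z) t (ini [b])) :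
    (b = true → Tab.Acc (tabOf P) z (3 * t + 7)) ∧ (b = false → ∀ t', ¬ Tab.Acc (tabOf P) z t') := by
  have hpl : Pl (tabOf P) 0 (tabOf P) := by intro i x hx; simpa using hx
  obtain ⟨n, hn, e1⟩ := run_code (T := tabOf P) (Ev.wrap h) (o := 0) (e := sz (wrap P)) hpl.left
  have hent : ent (wrap P) 0 (sz (wrap P)) = 0 := rfl
  rw [hent] at e1
  have hstep : Tab.step (tabOf P) ⟨sz (wrap P), ini [b]⟩ =
      (TI.pop 0 (tlen P + 1) (tlen P + 1) (tlen P)).exec (ini [b]) := by
    have := (hpl.right (l := code (wrap P) 0 (sz (wrap P))) (o' := sz (wrap P)) (by simp)).step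
      (i := 0) (x := .pop 0 (tlen P + 1) (tlen P + 1) (tlen P)) (by simp) (ini [b])
    simpa using this
  have h2 : (Tab.cf (tabOf P) z (n + 1)) =
      (TI.pop 0 (tlen P + 1) (tlen P + 1) (tlen P)).exec (ini [b]) := by
    unfold Tab.cf
    rw [Function.iterate_succ_apply', e1, hstep]
  have hini : ini [b] 0 = [b] := by simp [ini]
  constructor
  · rintro rfl
    have : Tab.Acc (tabOf P) z (n + 1) := by
      unfold Tab.Acc
      rw [h2, tabOf_length]
      simp [TI.exec, hini]
    exact this.mono (by omega)
  · rintro rfl t'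
    refine Tab.not_Acc_of_halted (t := n + 1) ?_ t'
    rw [h2, tabOf_length]
    simp [TI.exec, hini]

end Crest.Agent.WLM
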