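import Crest.Agent.WLX.UNCode

/-!
# Row 290, module B3: binary arithmetic in polynomial time

`BN f`: the number-valued function `f : W → ℕ` is polynomial-time computable in binary.
-/

set_option autoImplicit false

namespace Crest.Agent.WLM

open Crest.Agent.CHR Crest.Agent.WLX Crest.CountHier

def BN (f : W → ℕ) : Prop := PolyTime (fun w => Nat.bits (f w))

theorem BN.congr {f g : W → ℕ} (hf : BN f) (h : ∀ w, f w = g w) : BN g := by
  have : g = f := by funext w; exact (h w).symm
  rw [this]; exact hf

theorem BN.of_str {g : W → W} (hg : PolyTime g) : BN (fun w => val (g w)) := PT.norm hg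

theorem BN.comp {f : W → ℕ} {g : W → W} (hf : BN f) (hg : PolyTime g) : BN (fun w => f (g w)) :=
  PT.comp (g := fun w => Nat.bits (f w)) hf hg

theorem BN.fst {f : W → ℕ} (hf : BN f) : BN (fun z => f (fstB z)) := hf.comp PT.fst

theorem BN.of_un {f : W → ℕ} (hf : UN f) : BN f := by
  have h := PT.lenBin hf
  refine PT.congr h fun w => by rw [un_length]

theorem BN.const (c : ℕ) : BN (fun _ => c) := PT.const (Nat.bits c)

open Classical in
theorem BN.ite {p : W → Prop} {f g : W → ℕ} (hp : UP p) (hf : BN f) (hg : BN g) :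
    BN (fun w => if p w then f w else g w) := by
  refine PT.congr (PT.iteP hp hf hg) fun w => ?_
  by_cases h : p w <;> simp [h]

theorem BN.ite' {p : W → Prop} [inst : ∀ w, Decidable (p w)] {f g : W → ℕ} (hp : UP p) (hf : BN f)
    (hg : BN g) : BN (fun w => if p w then f w else g w) :=
  (BN.ite hp hf hg).congr fun w => by by_cases h : p w <;> simp [h]

theorem UP.ltB {f g : W → ℕ} (hf : BN f) (hg : BN g) : UP (fun w => f w < g w) := by
  classical
  have h := PTP.lt hf hg
  refine PTP.congr h fun w => by simp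

theorem UP.leB {f g : W → ℕ} (hf : BN f) (hg : BN g) : UP (fun w => f w ≤ g w) :=
  (UP.ltB hg hf).not.congr fun w => by omega

theorem UP.eqB {f g : W → ℕ} (hf : BN f) (hg : BN g) : UP (fun w => f w = g w) :=
  ((UP.leB hf hg).and (UP.leB hg hf)).congr fun w => by omega

theorem val_testBit (l : W) (i : ℕ) : (val l).testBit i = l.getD i false := by
  induction l generalizing i with
  | nil => simp [val]
  | cons b l ih =>
    cases i with
    | zero =>
      simp only [val, List.getD_cons_zero, Nat.testBit_zero]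
      cases b <;> simp
    | succ i =>
      rw [Nat.testBit_succ, List.getD_cons_succ, ← ih]
      congr 1
      simp only [val]
      cases b <;> simp <;> omega

theorem getD_bits (n i : ℕ) : (Nat.bits n).getD i false = n.testBit i := by
  rw [← val_testBit, val_bits]

theorem UP.testBit {f i : W → ℕ} (hf : BN f) (hi : UN i) :
    UP (fun w => (f w).testBit (i w) = true) :=
  (UP.bit hf hi).congr fun w => by rw [getD_bits]

/-- number of bits -/
theorem UN.sizeB {f : W → ℕ} (hf : BN f) : UN (fun w => (Nat.bits (f w)).length) := UN.len hf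

theorem lt_two_pow_len (n : ℕ) : n < 2 ^ (Nat.bits n).length := by
  have := val_lt (Nat.bits n)
  rwa [val_bits] at this

theorem bits_len_le {n k : ℕ} (h : n < 2 ^ k) : (Nat.bits n).length ≤ k := by
  rw [Nat.size_eq_bits_len]
  exact Nat.size_le.2 h

theorem BN.of_testBit {f N : W → ℕ} (hN : UN N) (hlt : ∀ w, f w < 2 ^ N w)
    (hP : UP (fun z => (f (fstB z)).testBit (sndB z).length = true)) : BN f := by
  classical
  have h := PT.tab (N := N) (P := fun w i => (f w).testBit i = true) hN hP
  refine (BN.of_str h).congr fun w => ?_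
  apply Nat.eq_of_testBit_eq
  intro i
  rw [val_testBit]
  by_cases hi : i < N w
  · simp [List.getD, hi]
  · rw [List.getD_eq_default _ _ (by simpa using hi)]
    symm
    apply Nat.testBit_lt_two_pow
    exact lt_of_lt_of_le (hlt w) (Nat.pow_le_pow_right (by norm_num) (by omega))

theorem BN.pow2 {f : W → ℕ} (hf : UN f) : BN (fun w => 2 ^ f w) := by
  refine BN.of_testBit (hf.add (UN.const 1)) (fun w => Nat.pow_lt_pow_right (by norm_num) (by omega))
    ?_
  refine (UP.eqN hf.fst UN.var).congr fun z => ?_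
  rw [Nat.testBit_two_pow]
  simp

theorem BN.modPow2 {f g : W → ℕ} (hf : BN f) (hg : UN g) : BN (fun w => f w % 2 ^ g w) := by
  refine BN.of_testBit hg (fun w => Nat.mod_lt _ (by positivity)) ?_
  refine ((UP.lt UN.var hg.fst).and (UP.testBit hf.fst UN.var)).congr fun z => ?_
  rw [Nat.testBit_mod_two_pow]
  simp

theorem BN.divPow2 {f g : W → ℕ} (hf : BN f) (hg : UN g) : BN (fun w => f w / 2 ^ g w) := by
  refine BN.of_testBit (UN.sizeB hf)
    (fun w => lt_of_le_of_lt (Nat.div_le_self _ _) (lt_two_pow_len _)) ?_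
  refine (UP.testBit hf.fst (hg.fst.add UN.var)).congr fun z => ?_
  rw [Nat.testBit_div_two_pow, Nat.add_comm]

theorem BN.mulPow2 {f g : W → ℕ} (hf : BN f) (hg : UN g) : BN (fun w => f w * 2 ^ g w) := by
  refine BN.of_testBit ((UN.sizeB hf).add hg) (fun w => ?_) ?_
  · rw [pow_add]
    exact Nat.mul_lt_mul_of_pos_right (lt_two_pow_len _) (by positivity)
  · refine ((UP.le hg.fst UN.var).and (UP.testBit hf.fst (UN.var.sub hg.fst))).congr fun z => ?_
    rw [← Nat.shiftLeft_eq, Nat.testBit_shiftLeft]
    simp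

theorem BN.land {f g : W → ℕ} (hf : BN f) (hg : BN g) : BN (fun w => f w &&& g w) := by
  refine BN.of_testBit (UN.sizeB hf)
    (fun w => lt_of_le_of_lt Nat.and_le_left (lt_two_pow_len _)) ?_
  refine ((UP.testBit hf.fst UN.var).and (UP.testBit hg.fst UN.var)).congr fun z => ?_
  rw [Nat.testBit_and]
  simp

theorem BN.lor {f g : W → ℕ} (hf : BN f) (hg : BN g) : BN (fun w => f w ||| g w) := by
  refine BN.of_testBit ((UN.sizeB hf).add (UN.sizeB hg)) (fun w => ?_) ?_
  · apply Nat.or_lt_two_pow
    · exact lt_of_lt_of_le (lt_two_pow_len _) (Nat.pow_le_pow_right (by norm_num) (by omega))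
    · exact lt_of_lt_of_le (lt_two_pow_len _) (Nat.pow_le_pow_right (by norm_num) (by omega))
  · refine ((UP.testBit hf.fst UN.var).or (UP.testBit hg.fst UN.var)).congr fun z => ?_
    rw [Nat.testBit_or]
    simp

theorem UP.xor {p q : W → Prop} (hp : UP p) (hq : UP q) : UP (fun w => ¬ (p w ↔ q w)) :=
  (hp.iff hq).not

theorem BN.xor {f g : W → ℕ} (hf : BN f) (hg : BN g) : BN (fun w => f w ^^^ g w) := by
  refine BN.of_testBit ((UN.sizeB hf).add (UN.sizeB hg)) (fun w => ?_) ?_
  · apply Nat.xor_lt_two_pow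
    · exact lt_of_lt_of_le (lt_two_pow_len _) (Nat.pow_le_pow_right (by norm_num) (by omega))
    · exact lt_of_lt_of_le (lt_two_pow_len _) (Nat.pow_le_pow_right (by norm_num) (by omega))
  · refine (UP.xor (UP.testBit hf.fst UN.var) (UP.testBit hg.fst UN.var)).congr fun z => ?_
    rw [Nat.testBit_xor]
    cases (f (fstB z)).testBit (sndB z).length <;> cases (g (fstB z)).testBit (sndB z).length <;> simp

/-- complement of the first `g` bits -/
theorem BN.compl {f g : W → ℕ} (hf : BN f) (hg : UN g) :
    BN (fun w => 2 ^ g w - (f w % 2 ^ g w + 1)) := by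
  refine BN.of_testBit hg (fun w => ?_) ?_
  · have : 0 < 2 ^ g w := by positivity
    omega
  · refine ((UP.lt UN.var hg.fst).and (UP.testBit hf.fst UN.var).not).congr fun z => ?_
    rw [Nat.testBit_two_pow_sub_succ (Nat.mod_lt _ (by positivity)), Nat.testBit_mod_two_pow]
    by_cases h : (sndB z).length < g (fstB z) <;> simp [h]

theorem testBit_add' (a b i : ℕ) : (a + b).testBit i =
    ((a.testBit i ^^ b.testBit i) ^^ decide (2 ^ i - (b % 2 ^ i + 1) < a % 2 ^ i)) := by
  rw [Nat.testBit_eq_decide_div_mod_eq, Nat.testBit_eq_decide_div_mod_eq,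
    Nat.testBit_eq_decide_div_mod_eq]
  have hp : 0 < 2 ^ i := by positivity
  generalize 2 ^ i = p at hp
  have ha := Nat.div_add_mod a p
  have hb := Nat.div_add_mod b p
  have ha' := Nat.mod_lt a hp
  have hb' := Nat.mod_lt b hp
  generalize a / p = A at *
  generalize b / p = B at *
  generalize a % p = a' at *
  generalize b % p = b' at *
  subst ha hb
  by_cases h : p ≤ a' + b'
  · have e : (p * A + a' + (p * B + b')) / p = A + B + 1 := by
      have : p * A + a' + (p * B + b') = (a' + b' - p) + p * (A + B + 1) := by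
        rw [Nat.mul_add, Nat.mul_add]; omega
      rw [this, Nat.add_mul_div_left _ _ hp, Nat.div_eq_of_lt (by omega), Nat.zero_add]
    rw [e]
    have h2 : p - (b' + 1) < a' := by omega
    simp only [h2, decide_true]
    rcases Nat.mod_two_eq_zero_or_one A with hA | hA <;>
      rcases Nat.mod_two_eq_zero_or_one B with hB | hB
    · have : (A + B + 1) % 2 = 1 := by omega
      simp [hA, hB, this]
    · have : (A + B + 1) % 2 = 0 := by omega
      simp [hA, hB, this]
    · have : (A + B + 1) % 2 = 0 := by omega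
      simp [hA, hB, this]
    · have : (A + B + 1) % 2 = 1 := by omega
      simp [hA, hB, this]
  · have e : (p * A + a' + (p * B + b')) / p = A + B := by
      have : p * A + a' + (p * B + b') = (a' + b') + p * (A + B) := by
        rw [Nat.mul_add]; omega
      rw [this, Nat.add_mul_div_left _ _ hp, Nat.div_eq_of_lt (by omega), Nat.zero_add]
    rw [e]
    have h2 : ¬ (p - (b' + 1) < a') := by omega
    simp only [h2, decide_false]
    rcases Nat.mod_two_eq_zero_or_one A with hA | hA <;>
      rcases Nat.mod_two_eq_zero_or_one B with hB | hB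
    · have : (A + B) % 2 = 0 := by omega
      simp [hA, hB, this]
    · have : (A + B) % 2 = 1 := by omega
      simp [hA, hB, this]
    · have : (A + B) % 2 = 1 := by omega
      simp [hA, hB, this]
    · have : (A + B) % 2 = 0 := by omega
      simp [hA, hB, this]

theorem testBit_sub' (a b i : ℕ) (hle : b ≤ a) : (a - b).testBit i =
    ((a.testBit i ^^ b.testBit i) ^^ decide (a % 2 ^ i < b % 2 ^ i)) := by
  have h1 := testBit_add' (a - b) b i
  rw [Nat.sub_add_cancel hle] at h1
  have hp : 0 < 2 ^ i := by positivity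
  have hiff : (2 ^ i - (b % 2 ^ i + 1) < (a - b) % 2 ^ i) ↔ a % 2 ^ i < b % 2 ^ i := by
    have e : a = (a - b) + b := by omega
    have h2 : a % 2 ^ i = ((a - b) % 2 ^ i + b % 2 ^ i) % 2 ^ i := by
      conv_lhs => rw [e, Nat.add_mod]
    have h3 := Nat.mod_lt (a - b) hp
    have h4 := Nat.mod_lt b hp
    rw [h2]
    generalize (a - b) % 2 ^ i = x at *
    generalize b % 2 ^ i = y at *
    generalize 2 ^ i = p at *
    by_cases hxy : p ≤ x + y
    · rw [Nat.mod_eq_sub_mod hxy, Nat.mod_eq_of_lt (by omega)]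
      omega
    · rw [Nat.mod_eq_of_lt (by omega)]
      omega
  rw [h1]
  have h5 : decide (2 ^ i - (b % 2 ^ i + 1) < (a - b) % 2 ^ i) = decide (a % 2 ^ i < b % 2 ^ i) :=
    decide_eq_decide.2 hiff
  rw [h5]
  cases (a - b).testBit i <;> cases b.testBit i <;> cases decide (a % 2 ^ i < b % 2 ^ i) <;> rfl

theorem BN.add {f g : W → ℕ} (hf : BN f) (hg : BN g) : BN (fun w => f w + g w) := by
  refine BN.of_testBit (((UN.sizeB hf).add (UN.sizeB hg)).add (UN.const 1)) (fun w => ?_) ?_
  · have h1 := lt_two_pow_len (f w)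
    have h2 := lt_two_pow_len (g w)
    have h3 : 2 ^ (Nat.bits (f w)).length ≤ 2 ^ ((Nat.bits (f w)).length + (Nat.bits (g w)).length) :=
      Nat.pow_le_pow_right (by norm_num) (by omega)
    have h4 : 2 ^ (Nat.bits (g w)).length ≤ 2 ^ ((Nat.bits (f w)).length + (Nat.bits (g w)).length) :=
      Nat.pow_le_pow_right (by norm_num) (by omega)
    rw [pow_succ]
    omega
  · have h1 := UP.xor (UP.xor (UP.testBit hf.fst UN.var) (UP.testBit hg.fst UN.var))
      (UP.ltB (BN.compl hg.fst UN.var) (BN.modPow2 hf.fst UN.var))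
    refine h1.congr fun z => ?_
    rw [testBit_add']
    cases (f (fstB z)).testBit (sndB z).length <;> cases (g (fstB z)).testBit (sndB z).length <;>
      simp

theorem BN.sub {f g : W → ℕ} (hf : BN f) (hg : BN g) : BN (fun w => f w - g w) := by
  refine BN.of_testBit (UN.sizeB hf)
    (fun w => lt_of_le_of_lt (Nat.sub_le _ _) (lt_two_pow_len _)) ?_
  have h1 := (UP.leB hg.fst hf.fst).and (UP.xor (UP.xor (UP.testBit hf.fst UN.var)
    (UP.testBit hg.fst UN.var)) (UP.ltB (BN.modPow2 hf.fst UN.var) (BN.modPow2 hg.fst UN.var)))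
  refine h1.congr fun z => ?_
  by_cases h : g (fstB z) ≤ f (fstB z)
  · rw [testBit_sub' _ _ _ h]
    cases (f (fstB z)).testBit (sndB z).length <;> cases (g (fstB z)).testBit (sndB z).length <;>
      simp [h]
  · have : f (fstB z) - g (fstB z) = 0 := by omega
    rw [this]
    simp [h]

theorem mod_two_pow_succ' (x i : ℕ) : x % 2 ^ (i + 1) = x % 2 ^ i + 2 ^ i * (x.testBit i).toNat := by
  rw [Nat.mod_pow_succ, Nat.toNat_testBit]

/-- iteration -/
theorem BN.iterF {F : W → ℕ → ℕ} {s : W → ℕ → ℕ → ℕ} (h0 : BN (fun w => F w 0))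
    (hs : BN (fun z => s (fstB z) (fstB (sndB z)).length (val (sndB (sndB z)))))
    {N B : W → ℕ} (hF : ∀ w k, k < N w → F w (k + 1) = s w k (F w k))
    (hN : UN N) (hB : UN B) (hb : ∀ w k, k ≤ N w → F w k < 2 ^ B w) : BN (fun w => F w (N w)) := by
  obtain ⟨q1, hq1⟩ := hN.bound
  obtain ⟨q2, hq2⟩ := hB.bound
  have hstep : PolyTime (fun z => pairBits (fstB (sndB z) ++ [true])
      (Nat.bits (s (fstB z) (fstB (sndB z)).length (val (sndB (sndB z)))))) :=
    PT.pair (PT.append (PT.comp PT.fst PT.snd) (PT.const [true])) hs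
  have hinit : PolyTime (fun w => pairBits ([] : W) (Nat.bits (F w 0))) := PT.pair (PT.const []) h0
  have hit : ∀ (w : W) (k : ℕ), k ≤ N w →
      (fun T => (fun z => pairBits (fstB (sndB z) ++ [true])
        (Nat.bits (s (fstB z) (fstB (sndB z)).length (val (sndB (sndB z)))))) (pairBits w T))^[k]
        (pairBits [] (Nat.bits (F w 0))) = pairBits (un k) (Nat.bits (F w k)) := by
    intro w k
    induction k with
    | zero => intro _; rfl
    | succ k ih =>
      intro hk
      rw [Function.iterate_succ_apply', ih (by omega)]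
      simp only [fstB_pairBits, sndB_pairBits, un_length, val_bits]
      rw [hF w k (by omega)]
      congr 1
      simp [un, List.replicate_succ']
  have h := PT.iterS hstep hinit hN (Polynomial.C 2 * q1 + 1 + q2) (fun w k hk => by
    rw [hit w k hk, pairBits_length', un_length]
    have h1 := bits_len_le (hb w k hk)
    have h2 := hq1 w
    have h3 := hq2 w
    simp only [Polynomial.eval_add, Polynomial.eval_mul, Polynomial.eval_C, Polynomial.eval_one]
    omega)
  refine PT.congr (PT.comp PT.snd h) fun w => ?_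
  rw [hit w _ le_rfl, sndB_pairBits]

/-- the components of the context of `BN.iterF` -/
theorem UN.itK : UN (fun z => (fstB (sndB z)).length) := UN.len (PT.comp PT.fst PT.snd)
theorem BN.itX : BN (fun z => val (sndB (sndB z))) := BN.of_str (PT.comp PT.snd PT.snd)

theorem BN.mul {f g : W → ℕ} (hf : BN f) (hg : BN g) : BN (fun w => f w * g w) := by
  have h := BN.iterF (F := fun w k => (f w % 2 ^ k) * g w)
    (s := fun w k x => x + (if (f w).testBit k = true then g w * 2 ^ k else 0))
    (N := fun w => (Nat.bits (f w)).length)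
    (B := fun w => (Nat.bits (f w)).length + (Nat.bits (g w)).length)
    ((BN.const 0).congr fun w => by simp [Nat.mod_one])
    (BN.itX.add (BN.ite' (UP.testBit hf.fst UN.itK) (BN.mulPow2 hg.fst UN.itK) (BN.const 0)))
    (fun w k _ => by
      show f w % 2 ^ (k + 1) * g w = _
      rw [mod_two_pow_succ']
      cases (f w).testBit k <;> simp <;> ring)
    (UN.sizeB hf) ((UN.sizeB hf).add (UN.sizeB hg)) (fun w k _ => by
      show f w % 2 ^ k * g w < _
      rw [pow_add]
      calc f w % 2 ^ k * g w ≤ f w * g w := Nat.mul_le_mul_right _ (Nat.mod_le _ _)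
        _ < 2 ^ (Nat.bits (f w)).length * 2 ^ (Nat.bits (g w)).length := by
          apply Nat.mul_lt_mul_of_lt_of_le (lt_two_pow_len _) (lt_two_pow_len _).le
          positivity)
  refine h.congr fun w => ?_
  show f w % 2 ^ (Nat.bits (f w)).length * g w = _
  rw [Nat.mod_eq_of_lt (lt_two_pow_len _)]

theorem sub_mod_succ (q j : ℕ) : q - q % 2 ^ j =
    if (q - q % 2 ^ (j + 1)) + 2 ^ j ≤ q then (q - q % 2 ^ (j + 1)) + 2 ^ j
    else q - q % 2 ^ (j + 1) := by
  rw [mod_two_pow_succ']
  have h1 : q % 2 ^ j < 2 ^ j := Nat.mod_lt _ (by positivity)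
  have h2 : q % 2 ^ j + 2 ^ j * (q.testBit j).toNat ≤ q := by
    rw [← mod_two_pow_succ']; exact Nat.mod_le _ _
  cases hb : q.testBit j
  · simp only [hb, Bool.toNat_false, Nat.mul_zero, Nat.add_zero] at *
    rw [if_neg (by omega)]
  · simp only [hb, Bool.toNat_true, Nat.mul_one] at *
    rw [if_pos (by omega)]
    omega

theorem BN.div {f g : W → ℕ} (hf : BN f) (hg : BN g) : BN (fun w => f w / g w) := by
  have hn : UN (fun w => (Nat.bits (f w)).length) := UN.sizeB hf
  have hj : UN (fun z => (Nat.bits (f (fstB z))).length - 1 - (fstB (sndB z)).length) :=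
    (hn.fst.sub (UN.const 1)).sub UN.itK
  have h := BN.iterF
    (F := fun w k => f w / g w - f w / g w % 2 ^ ((Nat.bits (f w)).length - k))
    (s := fun w k x => if 0 < g w ∧ (x + 2 ^ ((Nat.bits (f w)).length - 1 - k)) * g w ≤ f w
      then x + 2 ^ ((Nat.bits (f w)).length - 1 - k) else x)
    (N := fun w => (Nat.bits (f w)).length) (B := fun w => (Nat.bits (f w)).length)
    ((BN.const 0).congr fun w => by
      show 0 = f w / g w - f w / g w % 2 ^ ((Nat.bits (f w)).length - 0)
      rw [Nat.sub_zero, Nat.mod_eq_of_lt (lt_of_le_of_lt (Nat.div_le_self _ _) (lt_two_pow_len _)),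
        Nat.sub_self])
    (BN.ite' ((UP.ltB (BN.const 0) hg.fst).and (UP.leB ((BN.itX.add (BN.pow2 hj)).mul hg.fst)
      hf.fst)) (BN.itX.add (BN.pow2 hj)) BN.itX)
    (fun w k hk => by
      have hk' : k < (Nat.bits (f w)).length := hk
      show f w / g w - f w / g w % 2 ^ ((Nat.bits (f w)).length - (k + 1)) = _
      obtain ⟨j, hj⟩ : ∃ j, (Nat.bits (f w)).length = k + 1 + j := Nat.exists_eq_add_of_le hk'
      have e1 : (Nat.bits (f w)).length - (k + 1) = j := by omega
      have e2 : (Nat.bits (f w)).length - 1 - k = j := by omega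
      have e3 : (Nat.bits (f w)).length - k = j + 1 := by omega
      rw [e1, e2, e3]
      rcases Nat.eq_zero_or_pos (g w) with h0 | h0
      · rw [h0]; simp
      · rw [sub_mod_succ]
        have hiff : (f w / g w - f w / g w % 2 ^ (j + 1)) + 2 ^ j ≤ f w / g w ↔
            0 < g w ∧ ((f w / g w - f w / g w % 2 ^ (j + 1)) + 2 ^ j) * g w ≤ f w := by
          rw [Nat.le_div_iff_mul_le h0]
          exact ⟨fun h => ⟨h0, h⟩, fun h => h.2⟩
        by_cases hc : (f w / g w - f w / g w % 2 ^ (j + 1)) + 2 ^ j ≤ f w / g w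
        · rw [if_pos hc, if_pos (hiff.1 hc)]
        · rw [if_neg hc, if_neg (fun h => hc (hiff.2 h))])
    hn hn (fun w k _ => by
      show f w / g w - _ < _
      exact lt_of_le_of_lt (Nat.sub_le _ _)
        (lt_of_le_of_lt (Nat.div_le_self _ _) (lt_two_pow_len _)))
  refine h.congr fun w => ?_
  show f w / g w - f w / g w % 2 ^ ((Nat.bits (f w)).length - (Nat.bits (f w)).length) = _
  rw [Nat.sub_self, pow_zero, Nat.mod_one, Nat.sub_zero]

theorem BN.mod {f g : W → ℕ} (hf : BN f) (hg : BN g) : BN (fun w => f w % g w) := by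
  refine (hf.sub (hg.mul (hf.div hg))).congr fun w => ?_
  have := Nat.div_add_mod (f w) (g w)
  omega

/-- a bounded binary number in unary -/
theorem UN.minB {f g : W → ℕ} (hf : BN f) (hg : UN g) : UN (fun w => Min.min (f w) (g w)) := by
  classical
  have hP : UP (fun z => (sndB z).length < f (fstB z)) := UP.ltB (BN.of_un UN.var) hf.fst
  refine (UN.card (P := fun w i => i < f w) hg hP).congr fun w => ?_
  have e : (Finset.range (g w)).filter (fun i => i < f w) = Finset.range (Min.min (f w) (g w)) := by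
    ext i; simp [and_comm]
  have e2 := congrArg Finset.card e
  rw [Finset.card_range] at e2
  convert e2

end Crest.Agent.WLM
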