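import Crest.Agent.WLM.RamDefs
import Crest.Agent.WLM.BN

/-!
# Row 290, module B3: the step of the numeric simulation is polynomial-time computable

(helper15)
-/

set_option autoImplicit false

namespace Crest.Agent.WLM

open Crest.Agent.CHR Crest.Agent.WLX Crest.CountHier Crest.WordRAM

/-- string-valued iteration -/
theorem PT.iterF {F : W → ℕ → W} {s : W → ℕ → W → W} (h0 : PolyTime (fun w => F w 0))
    (hs : PolyTime (fun z => s (fstB z) (fstB (sndB z)).length (sndB (sndB z))))
    {N : W → ℕ} (hF : ∀ w k, k < N w → F w (k + 1) = s w k (F w k)) (hN : UN N)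
    (q : Polynomial ℕ) (hb : ∀ w k, k ≤ N w → (F w k).length ≤ q.eval w.length) :
    PolyTime (fun w => F w (N w)) := by
  obtain ⟨q1, hq1⟩ := hN.bound
  have hstep : PolyTime (fun z => pairBits (fstB (sndB z) ++ [true])
      (s (fstB z) (fstB (sndB z)).length (sndB (sndB z)))) :=
    PT.pair (PT.append (PT.comp PT.fst PT.snd) (PT.const [true])) hs
  have hinit : PolyTime (fun w => pairBits ([] : W) (F w 0)) := PT.pair (PT.const []) h0
  have hit : ∀ (w : W) (k : ℕ), k ≤ N w →
      (fun T => (fun z => pairBits (fstB (sndB z) ++ [true])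
        (s (fstB z) (fstB (sndB z)).length (sndB (sndB z)))) (pairBits w T))^[k]
        (pairBits [] (F w 0)) = pairBits (un k) (F w k) := by
    intro w k
    induction k with
    | zero => intro _; rfl
    | succ k ih =>
      intro hk
      rw [Function.iterate_succ_apply', ih (by omega)]
      simp only [fstB_pairBits, sndB_pairBits, un_length]
      rw [hF w k (by omega)]
      congr 1
      simp [un, List.replicate_succ']
  have h := PT.iterS hstep hinit hN (Polynomial.C 2 * q1 + 1 + q) (fun w k hk => by
    rw [hit w k hk, pairBits_length', un_length]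
    have h1 := hb w k hk
    have h2 := hq1 w
    simp only [Polynomial.eval_add, Polynomial.eval_mul, Polynomial.eval_C, Polynomial.eval_one]
    omega)
  refine PT.congr (PT.comp PT.snd h) fun w => ?_
  rw [hit w _ le_rfl, sndB_pairBits]

/-! ## Association lists -/

theorem sndB_len_lt {T : W} (h : T ≠ []) : (sndB T).length < T.length := by
  have key : ∀ (n : ℕ) (T : W), T.length ≤ n → T ≠ [] → (sndB T).length < T.length := by
    intro n
    induction n with
    | zero =>
      intro T hT h
      exact absurd (List.length_eq_zero_iff.1 (by omega)) h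
    | succ n ih =>
      intro T hT h
      match T, h with
      | [true], _ => simp [sndB, unpairB]
      | true :: b :: l, _ =>
        have e : sndB (true :: b :: l) = sndB l := rfl
        rw [e]
        by_cases hl : l = []
        · subst hl; simp [sndB, unpairB]
        · have := ih l (by simp at hT; omega) hl
          simp only [List.length_cons]; omega
      | false :: l, _ =>
        have e : sndB (false :: l) = l := rfl
        rw [e]; simp
  exact key _ T le_rfl h

/-- decoding with fuel -/
def decF : ℕ → W → List (ℕ × ℕ)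
  | 0, _ => []
  | n + 1, T => if T = [] then [] else (val (fstB (fstB T)), val (sndB (fstB T))) :: decF n (sndB T)

/-- decoding of an association list -/
def decE (T : W) : List (ℕ × ℕ) := decF T.length T

theorem pairBits_ne_nil (x y : W) : pairBits x y ≠ [] := by
  intro h
  have := pairBits_length' x y
  rw [h] at this
  simp at this
  omega

theorem decF_encE (E : List (ℕ × ℕ)) (n : ℕ) (hn : (encE E).length ≤ n) : decF n (encE E) = E := by
  induction E generalizing n with
  | nil =>
    cases n with
    | zero => rfl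
    | succ n => simp [decF, encE]
  | cons e E ih =>
    have hlen := pairBits_length' (pairBits (Nat.bits e.1) (Nat.bits e.2)) (encE E)
    have hdef : encE (e :: E) = pairBits (pairBits (Nat.bits e.1) (Nat.bits e.2)) (encE E) := rfl
    rw [hdef] at hn ⊢
    cases n with
    | zero => omega
    | succ n =>
      simp only [decF, pairBits_ne_nil, if_false, fstB_pairBits, sndB_pairBits, val_bits]
      rw [ih n (by omega)]

theorem decE_encE (E : List (ℕ × ℕ)) : decE (encE E) = E := decF_encE E _ le_rfl

/-- scanning step -/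
def scn (k : ℕ) (T : W) : W := if val (fstB (fstB T)) = k then T else sndB T

theorem look_decF (k n : ℕ) (T : W) (hn : T.length ≤ n) :
    look (decF n T) k = val (sndB (fstB ((scn k)^[n] T))) := by
  induction n generalizing T with
  | zero =>
    have : T = [] := List.length_eq_zero_iff.1 (by omega)
    subst this
    rfl
  | succ n ih =>
    rw [Function.iterate_succ_apply]
    by_cases hT : T = []
    · subst hT
      have e : scn k [] = [] := by
        unfold scn
        split_ifs <;> rfl
      rw [e, ← ih [] (by simp)]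
      cases n <;> simp [decF, look]
    · have hlt := sndB_len_lt hT
      simp only [decF, hT, if_false, look]
      by_cases hk : val (fstB (fstB T)) = k
      · have e : scn k T = T := by unfold scn; rw [if_pos hk]
        have e2 : ∀ m, (scn k)^[m] T = T := by
          intro m
          induction m with
          | zero => rfl
          | succ m ihm => rw [Function.iterate_succ_apply, e, ihm]
        rw [if_pos hk, e, e2]
      · have e : scn k T = sndB T := by unfold scn; rw [if_neg hk]
        rw [if_neg hk, e]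
        exact ih _ (by omega)

theorem scn_len (k n : ℕ) (T : W) : ((scn k)^[n] T).length ≤ T.length := by
  induction n with
  | zero => exact le_rfl
  | succ n ih =>
    rw [Function.iterate_succ_apply']
    refine le_trans ?_ ih
    generalize (scn k)^[n] T = T'
    unfold scn
    split_ifs
    · exact le_rfl
    · by_cases h : T' = []
      · subst h; simp [sndB, unpairB]
      · exact (sndB_len_lt h).le

theorem BN.look {T : W → W} {k : W → ℕ} (hT : PolyTime T) (hk : BN k) :
    BN (fun z => look (decE (T z)) (k z)) := by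
  classical
  obtain ⟨q, hq⟩ := (UN.len hT).bound
  have hs : PolyTime (fun z => if val (fstB (fstB (sndB z))) = k (fstB z) then sndB z
      else sndB (sndB z)) := by
    refine PT.congr (PT.iteP (UP.eqB (BN.of_str (PT.comp PT.fst (PT.comp PT.fst PT.snd))) hk.fst)
      PT.snd (PT.comp PT.snd PT.snd)) fun z => ?_
    by_cases hc : val (fstB (fstB (sndB z))) = k (fstB z) <;> simp [hc]
  have h := PT.iterS hs hT (UN.len hT) q (fun w j _ => by
    have e : (fun T' => (fun z => if val (fstB (fstB (sndB z))) = k (fstB z) then sndB z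
        else sndB (sndB z)) (pairBits w T')) = scn (k w) := by
      funext T'; simp [scn]
    rw [e]
    exact (scn_len _ _ _).trans (hq w))
  refine (BN.of_str (PT.comp PT.snd (PT.comp PT.fst h))).congr fun w => ?_
  have e : (fun T' => (fun z => if val (fstB (fstB (sndB z))) = k (fstB z) then sndB z
      else sndB (sndB z)) (pairBits w T')) = scn (k w) := by
    funext T'; simp [scn]
  rw [e]
  exact (look_decF _ _ _ le_rfl).symm

/-! ## Configurations -/

/-- word length -/
def wS (z : W) : ℕ := (fstB z).length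

/-- decoded configuration -/
def ncS (z : W) : NC := ⟨val (fstB (sndB z)), decE (sndB (sndB z))⟩

theorem wS_encS (w : ℕ) (c : NC) : wS (encS w c) = w := by simp [wS, encS]

theorem ncS_encS (w : ℕ) (c : NC) : ncS (encS w c) = c := by
  simp only [ncS, encS, sndB_pairBits, fstB_pairBits, val_bits, decE_encE]

theorem hE : PolyTime (fun z => sndB (sndB z)) := PT.comp PT.snd PT.snd

theorem BN_pc : BN (fun z => (ncS z).pc) := BN.of_str (PT.comp PT.fst PT.snd)

theorem BN_look {k : W → ℕ} (hk : BN k) : BN (fun z => look (ncS z).E (k z)) := BN.look hE hk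

theorem BN_key (i : ℕ) {f : W → ℕ} (hf : BN f) : BN (fun z => 7 * f z + i) :=
  ((BN.const 7).mul hf).add (BN.const i)

theorem BN_op : BN (fun z => (ncS z).op) := BN_look (BN_key 2 BN_pc)
theorem BN_fd : BN (fun z => (ncS z).fd) := BN_look (BN_key 3 BN_pc)
theorem BN_fa : BN (fun z => (ncS z).fa) := BN_look (BN_key 4 BN_pc)
theorem BN_fb : BN (fun z => (ncS z).fb) := BN_look (BN_key 5 BN_pc)
theorem BN_fv : BN (fun z => (ncS z).fv) := BN_look (BN_key 6 BN_pc)
theorem BN_ra : BN (fun z => (ncS z).ra) := BN_look ((BN.const 7).mul BN_fa)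
theorem BN_rb : BN (fun z => (ncS z).rb) := BN_look ((BN.const 7).mul BN_fb)

theorem UP_op (i : ℕ) : UP (fun z => (ncS z).op = i) := UP.eqB BN_op (BN.const i)

theorem BN_pc1 : BN (fun z => (ncS z).pc + 1) := BN_pc.add (BN.const 1)

theorem BN_npc : BN (fun z => (ncS z).npc) := by
  unfold NC.npc
  exact BN.ite' (UP_op 15) BN_fv (BN.ite' (UP_op 16) (BN.ite' (UP.eqB BN_ra (BN.const 0)) BN_fv BN_pc1)
    (BN.ite' (UP_op 17) (BN.ite' (UP.eqB BN_ra BN_rb) BN_fv BN_pc1)
      (BN.ite' (UP_op 18) (BN.ite' (UP.ltB BN_ra BN_rb) BN_fv BN_pc1) BN_pc1)))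

theorem BN_wk : BN (fun z => (ncS z).wk) := by
  unfold NC.wk
  exact BN.ite' (UP_op 14) (BN_key 1 BN_rb) (BN.ite' ((UP_op 15).or ((UP_op 16).or
    ((UP_op 17).or (UP_op 18)))) ((BN.const 7).mul BN_fa) ((BN.const 7).mul BN_fd))

theorem UN_w : UN wS := UN.len PT.fst

theorem UP_rb_lt : UP (fun z => (ncS z).rb < wS z) := UP.ltB BN_rb (BN.of_un UN_w)

/-- the shift amount in unary -/
theorem UN_sh : UN (fun z => Min.min (ncS z).rb (wS z)) := UN.minB BN_rb UN_w

theorem BN_shl : BN (fun z => if (ncS z).rb < wS z then (ncS z).ra * 2 ^ (ncS z).rb else 0) := by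
  refine (BN.ite' UP_rb_lt (BN.mulPow2 BN_ra UN_sh) (BN.const 0)).congr fun z => ?_
  by_cases h : (ncS z).rb < wS z
  · rw [if_pos h, if_pos h, min_eq_left h.le]
  · rw [if_neg h, if_neg h]

theorem BN_shr : BN (fun z => if (ncS z).rb < wS z then (ncS z).ra / 2 ^ (ncS z).rb else 0) := by
  refine (BN.ite' UP_rb_lt (BN.divPow2 BN_ra UN_sh) (BN.const 0)).congr fun z => ?_
  by_cases h : (ncS z).rb < wS z
  · rw [if_pos h, if_pos h, min_eq_left h.le]
  · rw [if_neg h, if_neg h]

theorem BN_wv : BN (fun z => (ncS z).wv (wS z)) := by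
  unfold NC.wv
  refine BN.modPow2 ?_ UN_w
  exact BN.ite' (UP_op 1) BN_fv (BN.ite' (UP_op 2) BN_ra (BN.ite' (UP_op 3) (BN_ra.add BN_rb)
    (BN.ite' (UP_op 4) (BN_ra.sub BN_rb) (BN.ite' (UP_op 5) (BN_ra.mul BN_rb)
    (BN.ite' (UP_op 6) (BN_ra.div BN_rb) (BN.ite' (UP_op 7) (BN_ra.mod BN_rb)
    (BN.ite' (UP_op 8) (BN_ra.land BN_rb) (BN.ite' (UP_op 9) (BN_ra.lor BN_rb)
    (BN.ite' (UP_op 10) (BN_ra.xor BN_rb) (BN.ite' (UP_op 11) BN_shl (BN.ite' (UP_op 12) BN_shr
    (BN.ite' (UP_op 13) (BN_look (BN_key 1 BN_ra)) (BN.ite' ((UP_op 14).or ((UP_op 15).or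
    ((UP_op 16).or ((UP_op 17).or (UP_op 18))))) BN_ra (BN.const 0))))))))))))))

/-- the step as a string function -/
def Gf (z : W) : W :=
  decide ((ncS z).op = 0) :: (if (ncS z).op = 0 then z else
    pairBits (fstB z) (pairBits (Nat.bits (ncS z).npc)
      (pairBits (pairBits (Nat.bits (ncS z).wk) (Nat.bits ((ncS z).wv (wS z)))) (sndB (sndB z)))))

theorem PT_Gf : PolyTime Gf := by
  classical
  have h1 : PolyTime (fun z => if (ncS z).op = 0 then z else
    pairBits (fstB z) (pairBits (Nat.bits (ncS z).npc)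
      (pairBits (pairBits (Nat.bits (ncS z).wk) (Nat.bits ((ncS z).wv (wS z)))) (sndB (sndB z))))) := by
    refine PT.congr (PT.iteP (UP_op 0) PT.id (PT.pair PT.fst (PT.pair BN_npc
      (PT.pair (PT.pair BN_wk BN_wv) hE)))) fun z => ?_
    by_cases hc : (ncS z).op = 0 <;> simp [hc]
  have h2 : PolyTime (fun z => [decide ((ncS z).op = 0)]) := by
    refine PT.congr (UP_op 0) fun z => ?_
    by_cases hc : (ncS z).op = 0 <;> simp [hc]
  exact PT.append h2 h1

theorem ramG : ∃ G : W → W, PolyTime G ∧ ∀ (w : ℕ) (c : NC),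
    G (encS w c) = decide (c.op = 0) :: encS w (c.step w) := by
  refine ⟨Gf, PT_Gf, fun w c => ?_⟩
  unfold Gf
  rw [ncS_encS, wS_encS]
  congr 1
  by_cases hc : c.op = 0
  · rw [if_pos hc]; simp [NC.step, hc]
  · rw [if_neg hc]; simp [NC.step, hc, encS, encE]

theorem ramO : ∃ O : W → W, PolyTime O ∧ ∀ (w : ℕ) (c : NC), O (encS w c) = [decide c.out1] := by
  classical
  have h : UP (fun z => (ncS z).out1) := (UP.eqB (BN_look (BN.const 0)) (BN.const 1)).and
    (UP.eqB (BN_look (BN_key 1 (BN_look (BN.const 7)))) (BN.const 1))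
  refine ⟨fun z => [decide (ncS z).out1], PT.congr h fun z => ?_, fun w c => ?_⟩
  · by_cases hc : (ncS z).out1 <;> simp [hc]
  · show [decide (ncS (encS w c)).out1] = _
    rw [ncS_encS]

/-! ## The initial configuration -/

/-- codes of the initial association list -/
def MJ (z : W) : ℕ → W
  | 0 => fstB z
  | k + 1 => pairBits (pairBits (Nat.bits (7 * k + 1))
      (Nat.bits ((if (sndB (sndB z)).getD k false = true then 1 else 0) % 2 ^ (fstB (sndB z)).length)))
      (MJ z k)

theorem MJ_eq (pe : List (ℕ × ℕ)) (w : ℕ) (x : W) (k : ℕ) :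
    MJ (pairBits (encE pe) (pairBits (un w) x)) k = encE (ments w x k ++ pe) := by
  induction k with
  | zero => simp [MJ, ments]
  | succ k ih =>
    have e : ments w x (k + 1) =
        (7 * k + 1, (if x.getD k false then 1 else 0) % 2 ^ w) :: ments w x k := by
      simp [ments, List.range_succ]
    rw [e]
    simp only [MJ, ih, fstB_pairBits, sndB_pairBits, un_length, List.cons_append, encE]

theorem MJ_len (z : W) (k : ℕ) : (MJ z k).length ≤ (fstB z).length + k * (28 * k + 12) := by
  induction k with
  | zero => simp [MJ]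
  | succ k ih =>
    simp only [MJ]
    rw [pairBits_length', pairBits_length']
    have h1 : (Nat.bits (7 * k + 1)).length ≤ 7 * k + 1 := bits_len_le Nat.lt_two_pow_self
    have h2 : (Nat.bits ((if (sndB (sndB z)).getD k false = true then 1 else 0) %
        2 ^ (fstB (sndB z)).length)).length ≤ 1 := by
      apply bits_len_le
      refine lt_of_le_of_lt (Nat.mod_le _ _) ?_
      split_ifs <;> norm_num
    have h3 : (k + 1) * (28 * (k + 1) + 12) = k * (28 * k + 12) + (56 * k + 40) := by ring
    omega

theorem PT_MJ : PolyTime (fun z => MJ z (sndB (sndB z)).length) := by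
  have hx : PolyTime (fun z => sndB (sndB z)) := hE
  obtain ⟨q1, hq1⟩ := (UN.len PT.fst).bound
  obtain ⟨q2, hq2⟩ := (UN.len hx).bound
  have hbit : BN (fun z => if (sndB (sndB (fstB z))).getD (fstB (sndB z)).length false = true
      then 1 else 0) :=
    BN.ite' (UP.bit (PT.comp (g := fun z => sndB (sndB z)) hx PT.fst) UN.itK) (BN.const 1) (BN.const 0)
  refine PT.iterF (s := fun z k T => pairBits (pairBits (Nat.bits (7 * k + 1))
      (Nat.bits ((if (sndB (sndB z)).getD k false = true then 1 else 0) %
        2 ^ (fstB (sndB z)).length))) T) PT.fst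
    (PT.pair (PT.pair (BN_key 1 (BN.of_un UN.itK)) (BN.modPow2 hbit (UN.len (PT.comp PT.fst
      (PT.comp PT.snd PT.fst))))) hE) (fun w k _ => rfl) (UN.len hx)
    (q1 + q2 * (Polynomial.C 28 * q2 + 12)) (fun w k hk => ?_)
  refine (MJ_len w k).trans ?_
  have h1 := hq1 w
  have h2 := hq2 w
  have h3 : k ≤ q2.eval w.length := hk.trans h2
  simp only [Polynomial.eval_add, Polynomial.eval_mul, Polynomial.eval_C, Polynomial.eval_ofNat]
  exact Nat.add_le_add h1 (Nat.mul_le_mul h3 (by omega))

theorem ramJ : ∃ J : W → W, PolyTime J ∧ ∀ (pe : List (ℕ × ℕ)) (w : ℕ) (x : W),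
    J (pairBits (encE pe) (pairBits (un w) x)) = encS w (ninit pe w x) := by
  refine ⟨fun z => pairBits (fstB (sndB z)) (pairBits (Nat.bits 0) (pairBits (pairBits (Nat.bits 0)
    (Nat.bits ((sndB (sndB z)).length % 2 ^ (fstB (sndB z)).length)))
      (MJ z (sndB (sndB z)).length))), ?_, fun pe w x => ?_⟩
  · exact PT.pair (PT.comp PT.fst PT.snd) (PT.pair (BN.const 0) (PT.pair (PT.pair (BN.const 0)
      (BN.modPow2 (BN.of_un (UN.len hE)) (UN.len (PT.comp PT.fst PT.snd)))) PT_MJ))
  · simp only [fstB_pairBits, sndB_pairBits, un_length, MJ_eq]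
    rfl

end Crest.Agent.WLM
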