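import Crest.Agent.WLM.RamDefs
import Crest.Agent.WLX.UNIter

/-!
# Row 290, module B3: size of the numeric configurations

CHUNK R290-B3-SIZE.
-/

set_option autoImplicit false

namespace Crest.Agent.WLM

open Crest.Agent.CHR Crest.Agent.WLX Crest.CountHier Crest.WordRAM

/-- all keys and values are bounded -/
def Bnd (M : ℕ) (E : List (ℕ × ℕ)) : Prop := ∀ e ∈ E, e.1 < 7 * M + 7 ∧ e.2 < M

theorem Bnd.look {M : ℕ} {E : List (ℕ × ℕ)} (h : Bnd M E) (hM : 0 < M) (k : ℕ) : look E k < M := by
  induction E with
  | nil => simpa [WLM.look] using hM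
  | cons e E ih =>
    simp only [WLM.look]
    split_ifs with h1
    · exact (h e (by simp)).2
    · exact ih (fun e' he' => h e' (by simp [he']))

/-- PROOF. the key is `7 * v (+ 1)` with a looked-up `v < M`, the value is `< 2 ^ w ≤ M`. -/
theorem Bnd.step {M w : ℕ} {c : NC} (h : Bnd M c.E) (hM : 2 ^ w ≤ M) : Bnd M (c.step w).E := by
  have hM0 : 0 < M := lt_of_lt_of_le (by positivity) hM
  unfold NC.step
  split_ifs with h0
  · exact h
  · intro e he
    simp only [List.mem_cons] at he
    rcases he with rfl | he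
    · constructor
      · have h1 : c.rb < M := h.look hM0 _
        have h2 : c.fa < M := h.look hM0 _
        have h3 : c.fd < M := h.look hM0 _
        show c.wk < _
        unfold NC.wk
        split_ifs <;> omega
      · show c.wv w < M
        unfold NC.wv
        exact lt_of_lt_of_le (Nat.mod_lt _ (by positivity)) hM
    · exact h e he

theorem step_pc {M w : ℕ} {c : NC} (h : Bnd M c.E) (hM : 0 < M) :
    (c.step w).pc ≤ max M (c.pc + 1) := by
  unfold NC.step
  split_ifs with h0
  · exact le_max_of_le_right (Nat.le_succ _)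
  · show c.npc ≤ _
    have h1 : c.fv < M := h.look hM _
    unfold NC.npc
    split_ifs <;> first
      | exact le_max_of_le_left h1.le
      | exact le_max_right _ _

theorem step_len {w : ℕ} {c : NC} : (c.step w).E.length ≤ c.E.length + 1 := by
  unfold NC.step
  split_ifs with h0
  · exact Nat.le_succ _
  · simp

private theorem bits_len (k m : ℕ) (h : k < 2 ^ m) : (Nat.bits k).length ≤ m := by
  rw [Nat.size_eq_bits_len]
  exact Nat.size_le.2 h

private theorem add_le_mul_pow (a b : ℕ) (ha : 0 < a) : a + b ≤ a * 2 ^ b := by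
  have h1 : b + 1 ≤ 2 ^ b := Nat.lt_two_pow_self
  calc a + b ≤ a + a * b := by nlinarith
    _ = a * (b + 1) := by ring
    _ ≤ a * 2 ^ b := Nat.mul_le_mul_left _ h1

private theorem encE_len (L : ℕ) (E : List (ℕ × ℕ))
    (h : ∀ e ∈ E, e.1 < 2 ^ L ∧ e.2 < 2 ^ L) : (encE E).length ≤ (6 * L + 3) * E.length := by
  induction E with
  | nil => simp [encE]
  | cons e E ih =>
    have h1 := ih (fun e' he' => h e' (by simp [he']))
    have h2 := bits_len e.1 L (h e (by simp)).1
    have h3 := bits_len e.2 L (h e (by simp)).2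
    simp only [encE, pairBits_length', List.length_cons]
    nlinarith

private theorem exists_bd (pe : List (ℕ × ℕ)) : ∃ c : ℕ, ∀ e ∈ pe, e.1 < 7 * c + 7 ∧ e.2 < c := by
  induction pe with
  | nil => exact ⟨0, by simp⟩
  | cons e pe ih =>
    obtain ⟨c, hc⟩ := ih
    refine ⟨c + e.1 + e.2 + 1, ?_⟩
    intro e' he'
    simp only [List.mem_cons] at he'
    rcases he' with rfl | he'
    · constructor <;> omega
    · have := hc e' he'
      constructor <;> omega

/-- PROOF. Put `M = 2 ^ w + c₀`, `c₀` a bound for `7 * keys + values` of `pe` plus `|x| + 1`; all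
entries of the configuration number `i` are bounded by `M` (`Bnd.step`), there are at most
`i + |x| + 1 + |pe|` of them, `pc ≤ M + i`; every number `< 8 * M + 8 + i` has at most
`w + C + |x| + i` bits (`Nat.size_le`, or `Nat.size` of a sum), and `pairBits` doubles the first
component (`pairBits_length'`). The constant `C` depends on `pe` only. -/
theorem size_bound (pe : List (ℕ × ℕ)) : ∃ C : ℕ, ∀ (w : ℕ) (x : W) (i : ℕ),
    (encS w ((fun c : NC => c.step w)^[i] (ninit pe w x))).length ≤
      C * (i + x.length + w + 2) ^ 2 := by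
  obtain ⟨c₀, hc₀⟩ := exists_bd pe
  refine ⟨2 + 2 * (c₀ + 6) + (6 * (c₀ + 6) + 3) * (1 + pe.length), ?_⟩
  intro w x i
  set M := 2 ^ w + (c₀ + x.length + 1) with hMdef
  have hw0 : 0 < 2 ^ w := by positivity
  have hM0 : 0 < M := by omega
  have hMw : 2 ^ w ≤ M := by omega
  have hinit : Bnd M (ninit pe w x).E := by
    intro e he
    simp only [ninit, List.mem_cons, List.mem_append] at he
    rcases he with rfl | he | he
    · constructor
      · show 0 < _
        omega
      · exact lt_of_lt_of_le (Nat.mod_lt _ hw0) hMw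
    · unfold ments at he
      simp only [List.mem_reverse, List.mem_map, List.mem_range] at he
      obtain ⟨j, hj, rfl⟩ := he
      constructor
      · show 7 * j + 1 < _
        omega
      · exact lt_of_lt_of_le (Nat.mod_lt _ hw0) hMw
    · have := hc₀ e he
      constructor <;> omega
  have hlen0 : (ninit pe w x).E.length = x.length + 1 + pe.length := by
    simp [ninit, ments]
    omega
  have key : Bnd M ((fun c : NC => c.step w)^[i] (ninit pe w x)).E ∧
      ((fun c : NC => c.step w)^[i] (ninit pe w x)).E.length ≤ i + x.length + 1 + pe.length ∧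
      ((fun c : NC => c.step w)^[i] (ninit pe w x)).pc ≤ M + i := by
    induction i with
    | zero =>
      refine ⟨hinit, ?_, ?_⟩
      · simp only [Function.iterate_zero, id]
        omega
      · simp [ninit]
    | succ i ih =>
      obtain ⟨h1, h2, h3⟩ := ih
      rw [Function.iterate_succ_apply']
      refine ⟨h1.step hMw, ?_, ?_⟩
      · refine step_len.trans ?_
        omega
      · refine (step_pc h1 hM0).trans ?_
        apply max_le <;> omega
  obtain ⟨h1, h2, h3⟩ := key
  set c := (fun c : NC => c.step w)^[i] (ninit pe w x) with hc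
  have hMpow : M ≤ 2 ^ (w + (c₀ + x.length + 1)) := by
    rw [pow_add]
    exact add_le_mul_pow _ _ hw0
  set L := w + (c₀ + x.length + 1) + 4 with hL
  have hL1 : 7 * M + 7 ≤ 2 ^ L := by
    rw [hL, pow_add]
    have : 7 * M + 7 ≤ M * 2 ^ 4 := by omega
    exact this.trans (Nat.mul_le_mul_right _ hMpow)
  have hE : (encE c.E).length ≤ (6 * L + 3) * c.E.length := by
    apply encE_len
    intro e he
    have := h1 e he
    constructor <;> omega
  have hpc : (Nat.bits c.pc).length ≤ L + i := by
    apply bits_len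
    have h4 : M + i ≤ M * 2 ^ i := add_le_mul_pow _ _ hM0
    have h5 : M * 2 ^ i < 2 ^ L * 2 ^ i :=
      (Nat.mul_lt_mul_right (by positivity)).2 (by omega)
    rw [pow_add]
    omega
  have hs : (encS w c).length ≤ 2 * w + 2 + 2 * (L + i) + (6 * L + 3) * c.E.length := by
    simp only [encS, pairBits_length', un_length]
    omega
  refine hs.trans ?_
  set s := i + x.length + w + 2 with hsdef
  have hs2 : 2 ≤ s := by omega
  have e1 : 2 * w + 2 ≤ 2 * s := by omega
  have e2 : L + i ≤ (c₀ + 6) * s := by
    have : c₀ ≤ c₀ * s := Nat.le_mul_of_pos_right _ (by omega)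
    have : (c₀ + 6) * s = c₀ * s + 6 * s := by ring
    omega
  have e3 : 6 * L + 3 ≤ (6 * (c₀ + 6) + 3) * s := by
    have h6 : 6 * L ≤ 6 * ((c₀ + 6) * s) := by omega
    have h7 : 3 ≤ 3 * s := by omega
    calc 6 * L + 3 ≤ 6 * ((c₀ + 6) * s) + 3 * s := by omega
      _ = (6 * (c₀ + 6) + 3) * s := by ring
  have e4 : c.E.length ≤ (1 + pe.length) * s := by
    have h6 : pe.length ≤ pe.length * s := Nat.le_mul_of_pos_right _ (by omega)
    have h7 : (1 + pe.length) * s = s + pe.length * s := by ring
    omega
  have e5 : s ≤ s ^ 2 := by nlinarith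
  calc 2 * w + 2 + 2 * (L + i) + (6 * L + 3) * c.E.length
      ≤ 2 * s + 2 * ((c₀ + 6) * s) + ((6 * (c₀ + 6) + 3) * s) * ((1 + pe.length) * s) := by
        gcongr
    _ = (2 + 2 * (c₀ + 6)) * s + (6 * (c₀ + 6) + 3) * (1 + pe.length) * s ^ 2 := by ring
    _ ≤ (2 + 2 * (c₀ + 6)) * s ^ 2 + (6 * (c₀ + 6) + 3) * (1 + pe.length) * s ^ 2 := by
        gcongr
    _ = _ := by ring

end Crest.Agent.WLM
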