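import Crest.Agent.WLM.RamRel
import Crest.Agent.WLM.RamSize
import Crest.Agent.WLM.RamPT
import Crest.Agent.WLD.Diag

/-!
# Row 290, module B3: `RamProp`

CHUNK R290-B3-FIN.
-/

set_option autoImplicit false

namespace Crest.Agent.WLM

open Crest.Agent.CHR Crest.Agent.WLX Crest.CountHier Crest.WordRAM Crest.Agent.WLD

/-- the loop body -/
theorem ev_whileG_loop {G : W → W} {P : Prog} {p : Polynomial ℕ}
    (hP : ∀ w : W, ∃ t ≤ p.eval w.length, Ev P (ini w) t (ini (G w))) (i : ℕ) :
    ∀ (s : ℕ → W) (N : ℕ), (∀ j < i, G (s j) = false :: s (j + 1)) →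
      G (s i) = true :: s (i + 1) → (∀ j ≤ i, (s j).length ≤ N) →
      ∃ t ≤ (i + 1) * (p.eval N + 5) + 1,
        Ev (.loop (P.maxReg + 1) (P ;; .case 0 .skip (.pop 0) (.pop 0 ;; .pop (P.maxReg + 1))))
          (st P.maxReg (s 0) [true] [] []) t (st P.maxReg (s (i + 1)) [] [] []) := by
  induction i with
  | zero =>
    intro s N _ h1 hN
    obtain ⟨t, ht, hE⟩ := hP (s 0)
    have hN0 : (s 0).length ≤ N := hN 0 le_rfl
    have ht' : t ≤ p.eval N := ht.trans (polyEval_mono p hN0)
    have e1 := hE.frame_st (le_refl P.maxReg) [true] [] []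
    rw [h1] at e1
    have e2 : Ev (.pop 0) (st P.maxReg (true :: s (0 + 1)) [true] [] []) 1
        (st P.maxReg (s (0 + 1)) [true] [] []) := by
      simpa using Ev.pop 0 (st P.maxReg (true :: s (0 + 1)) [true] [] [])
    have e3 : Ev (.pop (P.maxReg + 1)) (st P.maxReg (s (0 + 1)) [true] [] []) 1
        (st P.maxReg (s (0 + 1)) [] [] []) := by
      simpa using Ev.pop (P.maxReg + 1) (st P.maxReg (s (0 + 1)) [true] [] [])
    have e4 : Ev (.case 0 .skip (.pop 0) (.pop 0 ;; .pop (P.maxReg + 1)))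
        (st P.maxReg (true :: s (0 + 1)) [true] [] []) (1 + 1 + 1)
        (st P.maxReg (s (0 + 1)) [] [] []) :=
      Ev.case_true (l := s (0 + 1)) (by simp) (Ev.seq e2 e3)
    have e5 := Ev.loop_step (r := P.maxReg + 1) (by simp) (Ev.seq e1 e4)
      (Ev.loop_done (r := P.maxReg + 1) (by simp))
    refine ⟨_, ?_, e5⟩
    omega
  | succ i ih =>
    intro s N h0 h1 hN
    obtain ⟨t, ht, hE⟩ := hP (s 0)
    have hN0 : (s 0).length ≤ N := hN 0 (Nat.zero_le _)
    have ht' : t ≤ p.eval N := ht.trans (polyEval_mono p hN0)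
    obtain ⟨t2, ht2, hE2⟩ := ih (fun j => s (j + 1)) N (fun j hj => h0 (j + 1) (by omega)) h1
      (fun j hj => hN (j + 1) (by omega))
    have e1 := hE.frame_st (le_refl P.maxReg) [true] [] []
    rw [h0 0 (by omega)] at e1
    have e2 : Ev (.pop 0) (st P.maxReg (false :: s (0 + 1)) [true] [] []) 1
        (st P.maxReg (s (0 + 1)) [true] [] []) := by
      simpa using Ev.pop 0 (st P.maxReg (false :: s (0 + 1)) [true] [] [])
    have e4 : Ev (.case 0 .skip (.pop 0) (.pop 0 ;; .pop (P.maxReg + 1)))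
        (st P.maxReg (false :: s (0 + 1)) [true] [] []) (1 + 1)
        (st P.maxReg (s (0 + 1)) [true] [] []) :=
      Ev.case_false (l := s (0 + 1)) (by simp) e2
    have e5 := Ev.loop_step (r := P.maxReg + 1) (by simp) (Ev.seq e1 e4) hE2
    refine ⟨_, ?_, e5⟩
    have : (i + 1 + 1) * (p.eval N + 5) = (i + 1) * (p.eval N + 5) + (p.eval N + 5) := by ring
    omega

/-- LOOP.  `G z = true :: _` means stop.  PROOF. Let `P` be a program for `G` (`PolyTime G`,
polynomial `q`), `B = P.maxReg`, flag register `f = B + 1`. Body: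
`P ;; case 0 skip (pop 0) (pop 0 ;; pop f)`; program: `push f true ;; loop f body`. Frame lemma
`Ev.frame_st` (`st B w a b c`; registers `B+1, B+2, B+3` hold `a, b, c`) with `a = [true]`.
Induction on `i`. -/
theorem ev_whileG {G : W → W} (hG : PolyTime G) : ∃ (R : Prog) (q : Polynomial ℕ),
    ∀ (s : ℕ → W) (i N : ℕ), (∀ j < i, G (s j) = false :: s (j + 1)) →
      G (s i) = true :: s (i + 1) → (∀ j ≤ i, (s j).length ≤ N) →
      ∃ t ≤ (i + 1) * (q.eval N + 10) + 10, Ev R (ini (s 0)) t (ini (s (i + 1))) := by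
  obtain ⟨P, p, hP⟩ := hG
  refine ⟨.push (P.maxReg + 1) true ;;
    .loop (P.maxReg + 1) (P ;; .case 0 .skip (.pop 0) (.pop 0 ;; .pop (P.maxReg + 1))), p,
    fun s i N h0 h1 hN => ?_⟩
  obtain ⟨t, ht, hE⟩ := ev_whileG_loop hP i s N h0 h1 hN
  have e0 : Ev (.push (P.maxReg + 1) true) (st P.maxReg (s 0) [] [] []) 1
      (st P.maxReg (s 0) [true] [] []) := by
    simpa using Ev.push (P.maxReg + 1) true (st P.maxReg (s 0) [] [] [])
  refine ⟨1 + t, ?_, ?_⟩
  · have : (i + 1) * (p.eval N + 5) ≤ (i + 1) * (p.eval N + 10) :=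
      Nat.mul_le_mul_left _ (by omega)
    omega
  · rw [← st_ini P.maxReg (s 0), ← st_ini P.maxReg (s (i + 1))]
    exact Ev.seq e0 hE

/-- push a constant string in front of register `0` -/
def pushL : W → Prog
  | [] => .skip
  | b :: l => pushL l ;; .push 0 b

theorem ev_pushL (l z : W) : Ev (pushL l) (ini z) (l.length + 1) (ini (l ++ z)) := by
  induction l with
  | nil => exact (Ev.skip (ini z)).time (by simp)
  | cons b l ih =>
    have e1 : Ev (.push 0 b) (st 0 (l ++ z) [] [] []) 1 (st 0 (b :: (l ++ z)) [] [] []) := by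
      simpa using Ev.push 0 b (st 0 (l ++ z) [] [] [])
    rw [st_ini, st_ini] at e1
    exact (Ev.seq ih e1).time (by simp)

theorem pairBits_eq_append (x y : W) : pairBits x y = pairBits x [] ++ y := by
  induction x with
  | nil => rfl
  | cons b x ih =>
    have h1 : ∀ v, pairBits (b :: x) v = true :: b :: pairBits x v := fun v => rfl
    rw [h1, h1, List.cons_append, List.cons_append, ← ih]

/-- PROOF. Case `P.numRegs = 0`: the output is `[]`, `R` = program of the constant function
`[false]` (`PT.const`; time polynomial of absolute degree? use `clr 0 ;; push 0 false`, linear time).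
Case `0 < P.numRegs`: `R` = (push the constant `pairBits (encE (pents P)) ·` in front: the reversed
list `pairBits (encE (pents P)) []`... pushed on register `0`) `;;` (program of `J`) `;;` (`ev_whileG`
for `G`, with `s j = encS w (number j)`) `;;` (program of `O`). Time: `run_num`, `size_bound`,
`poly_le` (`WLD/Diag.lean`: every polynomial is `≤ A (N+1)^B`). The exponent is
`q₀ = 2 * (B_J + B_G + B_O) + 3`, independent of `P`. Here `NC.step` at `op = 0` is the identity. -/
theorem ramProp : ∃ q₀ : ℕ, 0 < q₀ ∧ RamProp q₀ := by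
  obtain ⟨G, hG, hGs⟩ := ramG
  obtain ⟨O, ⟨PO, qO, hO⟩, hOs⟩ := ramO
  obtain ⟨J, ⟨PJ, qJ, hJ⟩, hJs⟩ := ramJ
  obtain ⟨RG, qG, hRG⟩ := ev_whileG hG
  obtain ⟨AG, BG, hqG⟩ := poly_le qG
  obtain ⟨AO, BO, hqO⟩ := poly_le qO
  obtain ⟨AJ, BJ, hqJ⟩ := poly_le qJ
  refine ⟨BJ + 2 * BG + 2 * BO + 3, by omega, fun P => ?_⟩
  rcases Nat.eq_zero_or_pos P.numRegs with h0 | h0
  · refine ⟨clr 0 ;; .push 0 false, 6, fun w x t₀ _ => ?_⟩
    have e1 : Ev (clr 0) (st 0 (pairBits (un w) x) [] [] [])
        (2 * (pairBits (un w) x).length + 1) (st 0 [] [] [] []) := ev_clr0 0 _ _ _ _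
    have e2 : Ev (.push 0 false) (st 0 [] [] [] []) 1 (st 0 [false] [] [] []) := by
      simpa using Ev.push 0 false (st 0 [] [] [] [])
    rw [st_ini, st_ini] at e1
    rw [st_ini, st_ini] at e2
    refine ⟨_, ?_, false, Ev.seq e1 e2, ?_⟩
    · rw [pairBits_length', un_length]
      have h1 : (t₀ + x.length + w + 2) ^ 1 ≤ (t₀ + x.length + w + 2) ^ (BJ + 2 * BG + 2 * BO + 3) :=
        Nat.pow_le_pow_right (by omega) (by omega)
      rw [pow_one] at h1
      have h2 := Nat.mul_le_mul_left 6 h1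
      omega
    · constructor
      · intro h; exact absurd h (by simp)
      · intro h
        exfalso
        have : (Cfg.reg (run P w (fun _ => 0) (x.map fun b => if b then 1 else 0) t₀) 0) = 0 := by
          unfold Cfg.reg
          rw [dif_neg (by omega)]
        unfold Cfg.output at h
        rw [this] at h
        simp at h
  · obtain ⟨C, hC⟩ := size_bound (pents P)
    set L : W := pairBits (encE (pents P)) [] with hL
    set D : ℕ := L.length with hD
    refine ⟨pushL L ;; PJ ;; RG ;; PO,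
      (D + 1) + AJ * (D + 2) ^ BJ + (AG * (C + 1) ^ BG + 20) + AO * (C + 1) ^ BO,
      fun w x t₀ hh => ?_⟩
    obtain ⟨i, hi, hi1, hi2, hout⟩ := run_num P h0 w x t₀ hh
    set cf : ℕ → NC := fun j => (fun c : NC => c.step w)^[j] (ninit (pents P) w x) with hcf
    set M : ℕ := t₀ + x.length + w + 2 with hM
    have hM2 : 2 ≤ M := by omega
    have hsz : ∀ j ≤ i, (encS w (cf j)).length ≤ C * M ^ 2 := fun j hj =>
      (hC w x j).trans (Nat.mul_le_mul_left _ (Nat.pow_le_pow_left (by omega) 2))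
    have hstep : ∀ j, cf (j + 1) = (cf j).step w := fun j => by
      simp only [hcf]
      rw [Function.iterate_succ_apply']
    have hG1 : ∀ j < i, G (encS w (cf j)) = false :: encS w (cf (j + 1)) := fun j hj => by
      rw [hGs, hstep j, decide_eq_false (hi1 j hj)]
    have hG2 : G (encS w (cf i)) = true :: encS w (cf (i + 1)) := by
      rw [hGs, hstep i, decide_eq_true hi2]
    obtain ⟨t3, ht3, e3⟩ := hRG (fun j => encS w (cf j)) i (C * M ^ 2) hG1 hG2 hsz
    have hfix : cf (i + 1) = cf i := by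
      rw [hstep i, NC.step, if_pos hi2]
    obtain ⟨t2, ht2, e2⟩ := hJ (pairBits (encE (pents P)) (pairBits (un w) x))
    rw [hJs] at e2
    obtain ⟨t4, ht4, e4⟩ := hO (encS w (cf (i + 1)))
    rw [hOs] at e4
    have e1 := ev_pushL L (pairBits (un w) x)
    rw [hL, ← pairBits_eq_append] at e1
    refine ⟨(L.length + 1) + (t2 + (t3 + t4)), ?_, decide (cf (i + 1)).out1,
      Ev.seq e1 (Ev.seq e2 (Ev.seq e3 e4)), ?_⟩
    · -- time
      have hlen : (pairBits (encE (pents P)) (pairBits (un w) x)).length + 1 ≤ (D + 2) * M := by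
        rw [pairBits_eq_append, List.length_append, ← hL, ← hD, pairBits_length', un_length]
        nlinarith
      have b2 : t2 ≤ AJ * (D + 2) ^ BJ * M ^ BJ := by
        rw [mul_assoc, ← mul_pow]
        exact ht2.trans ((hqJ _).trans (Nat.mul_le_mul_left _ (Nat.pow_le_pow_left hlen _)))
      have hCM : C * M ^ 2 + 1 ≤ (C + 1) * M ^ 2 := by
        have : 1 ≤ M ^ 2 := Nat.one_le_pow _ _ (by omega)
        nlinarith
      have b3 : qG.eval (C * M ^ 2) ≤ AG * (C + 1) ^ BG * M ^ (2 * BG) := by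
        rw [mul_assoc, pow_mul, ← mul_pow]
        exact (hqG _).trans (Nat.mul_le_mul_left _ (Nat.pow_le_pow_left hCM _))
      have b4 : t4 ≤ AO * (C + 1) ^ BO * M ^ (2 * BO) := by
        rw [mul_assoc, pow_mul, ← mul_pow]
        refine ht4.trans ((hqO _).trans (Nat.mul_le_mul_left _ (Nat.pow_le_pow_left ?_ _)))
        rw [hfix]
        have := hsz i le_rfl
        omega
      set X : ℕ := M ^ (BJ + 2 * BG + 2 * BO + 3) with hX
      have hM1 : 1 ≤ M := by omega
      have p1 : 1 ≤ X := Nat.one_le_pow _ _ hM1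
      have p2 : M ^ BJ ≤ X := Nat.pow_le_pow_right hM1 (by omega)
      have p3 : M ^ (2 * BG) * M ≤ X := by
        rw [← pow_succ]
        exact Nat.pow_le_pow_right hM1 (by omega)
      have p4 : M ^ (2 * BO) ≤ X := Nat.pow_le_pow_right hM1 (by omega)
      have p5 : M ≤ X := by
        calc M = M ^ 1 := (pow_one M).symm
          _ ≤ X := Nat.pow_le_pow_right hM1 (by omega)
      have b3' : t3 ≤ (AG * (C + 1) ^ BG + 20) * X := by
        have hiM : i + 1 ≤ M := by omega
        calc t3 ≤ (i + 1) * (qG.eval (C * M ^ 2) + 10) + 10 := ht3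
          _ ≤ M * (AG * (C + 1) ^ BG * M ^ (2 * BG) + 10) + 10 := by
              have := Nat.mul_le_mul hiM (Nat.add_le_add_right b3 10)
              omega
          _ = AG * (C + 1) ^ BG * (M ^ (2 * BG) * M) + 10 * M + 10 := by ring
          _ ≤ AG * (C + 1) ^ BG * X + 10 * X + 10 * X := by
              have := Nat.mul_le_mul_left (AG * (C + 1) ^ BG) p3
              omega
          _ = (AG * (C + 1) ^ BG + 20) * X := by ring
      have b2' : t2 ≤ AJ * (D + 2) ^ BJ * X := b2.trans (Nat.mul_le_mul_left _ p2)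
      have b4' : t4 ≤ AO * (C + 1) ^ BO * X := b4.trans (Nat.mul_le_mul_left _ p4)
      have b1' : L.length + 1 ≤ (D + 1) * X := by
        rw [← hD]
        exact Nat.le_mul_of_pos_right _ p1
      calc (L.length + 1) + (t2 + (t3 + t4)) ≤ (D + 1) * X + (AJ * (D + 2) ^ BJ * X +
            ((AG * (C + 1) ^ BG + 20) * X + AO * (C + 1) ^ BO * X)) := by omega
        _ = ((D + 1) + AJ * (D + 2) ^ BJ + (AG * (C + 1) ^ BG + 20) + AO * (C + 1) ^ BO) * X := by
            ring
    · rw [decide_eq_true_iff, hfix]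
      exact hout.symm

end Crest.Agent.WLM
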