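import Crest.Agent.WLM.Tab
import Crest.Agent.WLX.UNCode
import Crest.Prelude.Def_WordRAM

/-!
# Row 290, module B3: word RAM → structured programs: definitions

The configuration of a word RAM (program included) is one association list of natural numbers
`E : List (ℕ × ℕ)` (most recent entry first) and the program counter:
* key `7 * j`: register `j`; key `7 * i + 1`: memory cell `i`;
* keys `7 * p + 2, …, 7 * p + 6`: opcode, `d`, `a`, `b`, literal of instruction `p`.
-/

set_option autoImplicit false

namespace Crest.Agent.WLM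

open Crest.Agent.CHR Crest.Agent.WLX Crest.CountHier Crest.WordRAM

/-- look up a key (default `0`) -/
def look : List (ℕ × ℕ) → ℕ → ℕ
  | [], _ => 0
  | e :: E, k => if e.1 = k then e.2 else look E k

/-- numeric configuration -/
structure NC where
  pc : ℕ
  E : List (ℕ × ℕ)

namespace NC

variable (c : NC) (w : ℕ)

/-- opcode at the current program counter; `0` = halt -/
def op : ℕ := look c.E (7 * c.pc + 2)
def fd : ℕ := look c.E (7 * c.pc + 3)
def fa : ℕ := look c.E (7 * c.pc + 4)
def fb : ℕ := look c.E (7 * c.pc + 5)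
def fv : ℕ := look c.E (7 * c.pc + 6)
def ra : ℕ := look c.E (7 * c.fa)
def rb : ℕ := look c.E (7 * c.fb)

/-- next program counter -/
def npc : ℕ :=
  if c.op = 15 then c.fv
  else if c.op = 16 then (if c.ra = 0 then c.fv else c.pc + 1)
  else if c.op = 17 then (if c.ra = c.rb then c.fv else c.pc + 1)
  else if c.op = 18 then (if c.ra < c.rb then c.fv else c.pc + 1)
  else c.pc + 1

/-- key of the written entry (jumps rewrite register `a`) -/
def wk : ℕ :=
  if c.op = 14 then 7 * c.rb + 1
  else if c.op = 15 ∨ c.op = 16 ∨ c.op = 17 ∨ c.op = 18 then 7 * c.fa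
  else 7 * c.fd

/-- value of the written entry -/
def wv : ℕ :=
  (if c.op = 1 then c.fv
   else if c.op = 2 then c.ra
   else if c.op = 3 then c.ra + c.rb
   else if c.op = 4 then c.ra - c.rb
   else if c.op = 5 then c.ra * c.rb
   else if c.op = 6 then c.ra / c.rb
   else if c.op = 7 then c.ra % c.rb
   else if c.op = 8 then c.ra &&& c.rb
   else if c.op = 9 then c.ra ||| c.rb
   else if c.op = 10 then c.ra ^^^ c.rb
   else if c.op = 11 then (if c.rb < w then c.ra * 2 ^ c.rb else 0)
   else if c.op = 12 then (if c.rb < w then c.ra / 2 ^ c.rb else 0)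
   else if c.op = 13 then look c.E (7 * c.ra + 1)
   else if c.op = 14 ∨ c.op = 15 ∨ c.op = 16 ∨ c.op = 17 ∨ c.op = 18 then c.ra
   else 0) % 2 ^ w

/-- one step (a halted configuration stays) -/
def step : NC := if c.op = 0 then c else ⟨c.npc, (c.wk, c.wv w) :: c.E⟩

/-- the output is `[1]` -/
def out1 : Prop := look c.E 0 = 1 ∧ look c.E (7 * look c.E 7 + 1) = 1

instance : Decidable (out1 c) := by unfold out1; infer_instance

end NC

/-- opcode and fields of an instruction -/
def ifields {r : ℕ} : Instr r → ℕ × ℕ × ℕ × ℕ × ℕ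
  | .const d v => (1, d, 0, 0, v)
  | .copy d s => (2, d, s, 0, 0)
  | .add d a b => (3, d, a, b, 0)
  | .sub d a b => (4, d, a, b, 0)
  | .mul d a b => (5, d, a, b, 0)
  | .quot d a b => (6, d, a, b, 0)
  | .rem d a b => (7, d, a, b, 0)
  | .and d a b => (8, d, a, b, 0)
  | .or d a b => (9, d, a, b, 0)
  | .xor d a b => (10, d, a, b, 0)
  | .shl d a b => (11, d, a, b, 0)
  | .shr d a b => (12, d, a, b, 0)
  | .load d a => (13, d, a, 0, 0)
  | .store s a => (14, 0, s, a, 0)
  | .jump l => (15, 0, 0, 0, l)
  | .jumpIfZero a l => (16, 0, a, 0, l)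
  | .jumpIfEq a b l => (17, 0, a, b, l)
  | .jumpIfLt a b l => (18, 0, a, b, l)
  | .rand d => (19, d, 0, 0, 0)
  | .halt => (0, 0, 0, 0, 0)

/-- entries of instruction number `p` -/
def ientries (p : ℕ) (f : ℕ × ℕ × ℕ × ℕ × ℕ) : List (ℕ × ℕ) :=
  [(7 * p + 2, f.1), (7 * p + 3, f.2.1), (7 * p + 4, f.2.2.1), (7 * p + 5, f.2.2.2.1),
    (7 * p + 6, f.2.2.2.2)]

/-- entries of a list of instructions, numbered from `p` -/
def cents {r : ℕ} (p : ℕ) : List (Instr r) → List (ℕ × ℕ)
  | [] => []
  | i :: l => ientries p (ifields i) ++ cents (p + 1) l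

/-- entries of a program -/
def pents (P : Program) : List (ℕ × ℕ) := cents 0 P.code

/-- entries of the input: memory cells `k - 1, …, 0` -/
def ments (w : ℕ) (x : W) (k : ℕ) : List (ℕ × ℕ) :=
  ((List.range k).map fun i => (7 * i + 1, (if x.getD i false then 1 else 0) % 2 ^ w)).reverse

/-- initial numeric configuration; `pe` = entries of the program -/
def ninit (pe : List (ℕ × ℕ)) (w : ℕ) (x : W) : NC :=
  ⟨0, (0, x.length % 2 ^ w) :: (ments w x x.length ++ pe)⟩

/-- code of an association list -/
def encE : List (ℕ × ℕ) → W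
  | [] => []
  | e :: E => pairBits (pairBits (Nat.bits e.1) (Nat.bits e.2)) (encE E)

/-- code of a numeric configuration with word length -/
def encS (w : ℕ) (c : NC) : W := pairBits (un w) (pairBits (Nat.bits c.pc) (encE c.E))

/-- The equation lemmas are generated in this file (so that importing files share them). -/
theorem eqns_here : True := by
  have h1 := @look.eq_def
  have h2 := @encE.eq_def
  have h3 := @look.eq_1
  have h4 := @encE.eq_1
  have h5 := @ments.eq_1
  have h6 := @ninit.eq_1
  have h7 := @encS.eq_1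
  trivial

end Crest.Agent.WLM
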