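import Crest.Agent.WLM.RamDefs

/-!
# Row 290, module B3: correctness of the numeric simulation of a word RAM

CHUNK R290-B3-REL.
-/

set_option autoImplicit false

namespace Crest.Agent.WLM

open Crest.Agent.CHR Crest.Agent.WLX Crest.CountHier Crest.WordRAM

/-- simulation relation -/
structure RR (P : Program) (w : ℕ) (c : Cfg P.numRegs) (n : NC) : Prop where
  halted : c.halted = false
  pc : n.pc = c.pc
  reg : ∀ j, look n.E (7 * j) = c.reg j
  mem : ∀ i, look n.E (7 * i + 1) = c.mem i
  fop : ∀ p, (look n.E (7 * p + 2), look n.E (7 * p + 3), look n.E (7 * p + 4),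
    look n.E (7 * p + 5), look n.E (7 * p + 6)) =
      match P.code[p]? with
      | none => (0, 0, 0, 0, 0)
      | some i => ifields i
  regs_lt : ∀ j, c.regs j < 2 ^ w
  mem_lt : ∀ i, c.mem i < 2 ^ w

/-! ### lemmas on `look` -/

theorem look_append_not {A B : List (ℕ × ℕ)} {k : ℕ} (h : ∀ e ∈ A, e.1 ≠ k) :
    look (A ++ B) k = look B k := by
  induction A with
  | nil => rfl
  | cons e A ih =>
    rw [List.cons_append, look, if_neg (h e (by simp)), ih fun e' he' => h e' (by simp [he'])]

theorem ments_succ (w : ℕ) (x : W) (k : ℕ) :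
    ments w x (k + 1) = (7 * k + 1, (if x.getD k false then 1 else 0) % 2 ^ w) :: ments w x k := by
  simp [ments, List.range_succ]

theorem look_ments (w : ℕ) (x : W) (B : List (ℕ × ℕ)) (k i : ℕ) :
    look (ments w x k ++ B) (7 * i + 1) =
      if i < k then (if x.getD i false then 1 else 0) % 2 ^ w else look B (7 * i + 1) := by
  induction k with
  | zero => simp [ments]
  | succ k ih =>
    rw [ments_succ, List.cons_append, look]
    dsimp only
    by_cases h : k = i
    · subst h
      rw [if_pos rfl, if_pos (Nat.lt_succ_self _)]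
    · rw [if_neg (by omega), ih]
      by_cases h2 : i < k
      · rw [if_pos h2, if_pos (show i < k + 1 by omega)]
      · rw [if_neg h2, if_neg (show ¬ i < k + 1 by omega)]

theorem look_ments_ne (w : ℕ) (x : W) (B : List (ℕ × ℕ)) (k q : ℕ) (hq : q % 7 ≠ 1) :
    look (ments w x k ++ B) q = look B q := by
  induction k with
  | zero => simp [ments]
  | succ k ih =>
    rw [ments_succ, List.cons_append, look]
    dsimp only
    rw [if_neg (by omega), ih]

theorem look_cents_lo {r : ℕ} (l : List (Instr r)) (p q : ℕ) (hq : q % 7 < 2) :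
    look (cents p l) q = 0 := by
  induction l generalizing p with
  | nil => rfl
  | cons i l ih =>
    rw [cents, look_append_not, ih]
    intro e he
    simp only [ientries, List.mem_cons, List.not_mem_nil, or_false] at he
    rcases he with rfl | rfl | rfl | rfl | rfl <;> dsimp only <;> omega

theorem look_cents {r : ℕ} (l : List (Instr r)) (p q : ℕ) :
    (look (cents p l) (7 * (p + q) + 2), look (cents p l) (7 * (p + q) + 3),
      look (cents p l) (7 * (p + q) + 4), look (cents p l) (7 * (p + q) + 5),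
      look (cents p l) (7 * (p + q) + 6)) =
      match l[q]? with
      | none => (0, 0, 0, 0, 0)
      | some i => ifields i := by
  induction l generalizing p q with
  | nil => simp [cents, look]
  | cons i l ih =>
    cases q with
    | zero =>
      simp [cents, ientries, look]
    | succ q =>
      have hne : ∀ s, 2 ≤ s → s ≤ 6 →
          look (cents p (i :: l)) (7 * (p + (q + 1)) + s) =
            look (cents (p + 1) l) (7 * (p + 1 + q) + s) := by
        intro s hs hs'
        have e : 7 * (p + (q + 1)) + s = 7 * (p + 1 + q) + s := by ring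
        rw [e, cents, look_append_not]
        intro e he
        simp only [ientries, List.mem_cons, List.not_mem_nil, or_false] at he
        rcases he with rfl | rfl | rfl | rfl | rfl <;> dsimp only <;> omega
      rw [hne 2 (by omega) (by omega), hne 3 (by omega) (by omega), hne 4 (by omega) (by omega),
        hne 5 (by omega) (by omega), hne 6 (by omega) (by omega), ih (p + 1) q]
      simp

/-- PROOF. `look` on appended lists: `look (A ++ B) k = look A k` if `k` occurs as a key in `A`,
else `look B k`; the keys of `ments` are `7 i + 1` (`i < |x|`), those of `pents` are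
`7 p + 2 .. 7 p + 6` (`p < P.code.length`), decode by induction on `P.code` (generalise the start
number `p` of `cents`). -/
theorem rr_init (P : Program) (hr : 0 < P.numRegs) (w : ℕ) (x : W) :
    RR P w (init P w (x.map fun b => if b then 1 else 0)) (ninit (pents P) w x) := by
  have hpow : 0 < 2 ^ w := by positivity
  refine ⟨rfl, rfl, ?_, ?_, ?_, ?_, ?_⟩
  · intro j
    simp only [ninit, look, Cfg.reg, init]
    by_cases hj : j = 0
    · subst hj
      rw [if_pos (by norm_num), dif_pos hr, if_pos rfl, List.length_map]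
    · rw [if_neg (by omega), look_ments_ne _ _ _ _ _ (by omega), pents,
        look_cents_lo _ _ _ (by omega)]
      split_ifs <;> simp_all
  · intro i
    simp only [ninit, look, init]
    rw [if_neg (by omega), look_ments, pents, look_cents_lo _ _ _ (by omega)]
    by_cases hi : i < x.length
    · rw [if_pos hi]
      simp [hi]
    · rw [if_neg hi]
      have : (List.map (fun b => if b = true then 1 else 0) x)[i]? = (none : Option ℕ) := by
        simp only [List.getElem?_eq_none_iff, List.length_map]; omega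
      rw [this]
      simp
  · intro p
    simp only [ninit, look]
    have h2 := look_cents P.code 0 p
    rw [Nat.zero_add] at h2
    rw [if_neg (by omega), if_neg (by omega), if_neg (by omega), if_neg (by omega),
      if_neg (by omega), look_ments_ne _ _ _ _ _ (by omega), look_ments_ne _ _ _ _ _ (by omega),
      look_ments_ne _ _ _ _ _ (by omega), look_ments_ne _ _ _ _ _ (by omega),
      look_ments_ne _ _ _ _ _ (by omega), pents, h2]
    cases P.code[p]? <;> rfl
  · intro j
    simp only [init]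
    split_ifs
    · exact Nat.mod_lt _ hpow
    · exact hpow
  · intro i
    simp only [init]
    exact Nat.mod_lt _ hpow

section stepLemmas

variable {P : Program} {w : ℕ} {c : Cfg P.numRegs} {n : NC}

theorem RR.ra_eq (h : RR P w c n) {a : Fin P.numRegs} (e : n.fa = a) : n.ra = c.regs a := by
  rw [NC.ra, e, h.reg, Cfg.reg, dif_pos a.2]

theorem RR.rb_eq (h : RR P w c n) {b : Fin P.numRegs} (e : n.fb = b) : n.rb = c.regs b := by
  rw [NC.rb, e, h.reg, Cfg.reg, dif_pos b.2]

theorem RR.reg_lt (h : RR P w c n) (j : ℕ) : c.reg j < 2 ^ w := by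
  rw [Cfg.reg]
  split_ifs with hj
  · exact h.regs_lt _
  · positivity

theorem RR.step_reg (h : RR P w c n) (hop : n.op ≠ 0) (d : Fin P.numRegs) (v : ℕ) (hv : v < 2 ^ w)
    (c' : Cfg P.numRegs) (hh : c'.halted = false) (hpc : n.npc = c'.pc)
    (hregs : c'.regs = writeReg c.regs d v) (hmem : c'.mem = c.mem)
    (hwk : n.wk = 7 * d) (hwv : n.wv w = v) : RR P w c' (n.step w) := by
  rw [NC.step, if_neg hop]
  refine ⟨hh, hpc, ?_, ?_, ?_, ?_, ?_⟩
  · intro j
    simp only [look]
    rw [hwk, hwv]
    by_cases hj : (d : ℕ) = j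
    · subst hj
      rw [if_pos rfl, Cfg.reg, dif_pos d.2, hregs, writeReg, if_pos rfl]
    · rw [if_neg (by omega), h.reg, Cfg.reg, Cfg.reg, hregs]
      split_ifs with h3
      · rw [writeReg, if_neg]
        intro h4
        exact hj (by rw [← h4])
      · rfl
  · intro i
    simp only [look]
    rw [hwk, if_neg (by omega), h.mem, hmem]
  · intro p
    simp only [look]
    rw [hwk, if_neg (by omega), if_neg (by omega), if_neg (by omega), if_neg (by omega),
      if_neg (by omega)]
    exact h.fop p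
  · intro j
    rw [hregs, writeReg]
    split_ifs
    · exact hv
    · exact h.regs_lt j
  · intro i
    rw [hmem]
    exact h.mem_lt i

theorem RR.step_mem (h : RR P w c n) (hop : n.op ≠ 0) (a : ℕ) (v : ℕ) (hv : v < 2 ^ w)
    (c' : Cfg P.numRegs) (hh : c'.halted = false) (hpc : n.npc = c'.pc)
    (hregs : c'.regs = c.regs) (hmem : c'.mem = writeMem c.mem a v)
    (hwk : n.wk = 7 * a + 1) (hwv : n.wv w = v) : RR P w c' (n.step w) := by
  rw [NC.step, if_neg hop]
  refine ⟨hh, hpc, ?_, ?_, ?_, ?_, ?_⟩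
  · intro j
    simp only [look]
    rw [hwk, if_neg (by omega), h.reg, Cfg.reg, Cfg.reg, hregs]
  · intro i
    simp only [look]
    rw [hwk, hwv, hmem, writeMem]
    by_cases hj : i = a
    · subst hj
      rw [if_pos rfl, if_pos rfl]
    · rw [if_neg (by omega), if_neg hj, h.mem]
  · intro p
    simp only [look]
    rw [hwk, if_neg (by omega), if_neg (by omega), if_neg (by omega), if_neg (by omega),
      if_neg (by omega)]
    exact h.fop p
  · intro j
    rw [hregs]
    exact h.regs_lt j
  · intro i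
    rw [hmem, writeMem]
    split_ifs
    · exact hv
    · exact h.mem_lt i

theorem RR.step_jump (h : RR P w c n) (hop : n.op ≠ 0)
    (c' : Cfg P.numRegs) (hh : c'.halted = false) (hpc : n.npc = c'.pc)
    (hregs : c'.regs = c.regs) (hmem : c'.mem = c.mem)
    (hwk : n.wk = 7 * n.fa) (hwv : n.wv w = n.ra % 2 ^ w) : RR P w c' (n.step w) := by
  have hwv' : n.wv w = c.reg n.fa := by
    rw [hwv, NC.ra, h.reg, Nat.mod_eq_of_lt (h.reg_lt _)]
  rw [NC.step, if_neg hop]
  refine ⟨hh, hpc, ?_, ?_, ?_, ?_, ?_⟩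
  · intro j
    simp only [look]
    rw [hwk, hwv']
    have hr : c'.reg j = c.reg j := by rw [Cfg.reg, Cfg.reg, hregs]
    by_cases hj : n.fa = j
    · rw [if_pos (by rw [hj]), hr, hj]
    · rw [if_neg (by omega), hr, h.reg]
  · intro i
    simp only [look]
    rw [hwk, if_neg (by omega), h.mem, hmem]
  · intro p
    simp only [look]
    rw [hwk, if_neg (by omega), if_neg (by omega), if_neg (by omega), if_neg (by omega),
      if_neg (by omega)]
    exact h.fop p
  · intro j
    rw [hregs]
    exact h.regs_lt j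
  · intro i
    rw [hmem]
    exact h.mem_lt i

theorem RR.fields (h : RR P w c n) {i : Instr P.numRegs} (hi : P.code[c.pc]? = some i) :
    (n.op, n.fd, n.fa, n.fb, n.fv) = ifields i := by
  have h1 := h.fop c.pc
  rw [hi] at h1
  simp only [NC.op, NC.fd, NC.fa, NC.fb, NC.fv, h.pc]
  exact h1

theorem RR.op_none (h : RR P w c n) (hi : P.code[c.pc]? = none) : n.op = 0 := by
  have h1 := h.fop c.pc
  rw [hi] at h1
  simp only [NC.op, h.pc]
  exact congrArg Prod.fst h1

end stepLemmas

/-- PROOF. case distinction on `P.code[c.pc]?` (21 cases; not `none`/`halt` since `n.op ≠ 0`); the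
value written is `< 2 ^ w`, so the `% 2 ^ w` in `wv` does nothing. `Nat.and_lt_two_pow`,
`Nat.or_lt_two_pow`, `Nat.xor_lt_two_pow`, `Nat.shiftLeft_eq`, `Nat.shiftRight_eq_div_pow`. -/
theorem rr_step (P : Program) (hr : 0 < P.numRegs) (w : ℕ) {c : Cfg P.numRegs} {n : NC}
    (h : RR P w c n) (hop : n.op ≠ 0) :
    RR P w (Crest.WordRAM.step P w (fun _ => 0) c) (n.step w) := by
  have hpow : 0 < 2 ^ w := by positivity
  rcases hi : P.code[c.pc]? with _ | i
  · exact absurd (h.op_none hi) hop
  have hf := h.fields hi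
  have hh := h.halted
  have hreg := h.regs_lt
  cases i with
  | const d v =>
    simp only [ifields, Prod.mk.injEq] at hf
    obtain ⟨e1, e2, e3, e4, e5⟩ := hf
    refine h.step_reg hop d (v % 2 ^ w) (Nat.mod_lt _ hpow) _ ?_ ?_ ?_ ?_ ?_ ?_
    all_goals simp [Crest.WordRAM.step, hh, hi, NC.npc, NC.wk, NC.wv, e1, e2, e5, h.pc]
  | copy d a =>
    simp only [ifields, Prod.mk.injEq] at hf
    obtain ⟨e1, e2, e3, e4, e5⟩ := hf
    have hra := h.ra_eq e3
    refine h.step_reg hop d (c.regs a) (hreg _) _ ?_ ?_ ?_ ?_ ?_ ?_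
    all_goals simp [Crest.WordRAM.step, hh, hi, NC.npc, NC.wk, NC.wv, e1, e2, hra, h.pc,
      Nat.mod_eq_of_lt (hreg _)]
  | add d a b =>
    simp only [ifields, Prod.mk.injEq] at hf
    obtain ⟨e1, e2, e3, e4, e5⟩ := hf
    have hra := h.ra_eq e3
    have hrb := h.rb_eq e4
    refine h.step_reg hop d ((c.regs a + c.regs b) % 2 ^ w) (Nat.mod_lt _ hpow) _ ?_ ?_ ?_ ?_ ?_ ?_
    all_goals simp [Crest.WordRAM.step, hh, hi, NC.npc, NC.wk, NC.wv, e1, e2, hra, hrb, h.pc]
  | sub d a b =>
    simp only [ifields, Prod.mk.injEq] at hf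
    obtain ⟨e1, e2, e3, e4, e5⟩ := hf
    have hra := h.ra_eq e3
    have hrb := h.rb_eq e4
    have hlt : c.regs a - c.regs b < 2 ^ w := lt_of_le_of_lt (Nat.sub_le _ _) (hreg a)
    refine h.step_reg hop d (c.regs a - c.regs b) hlt _ ?_ ?_ ?_ ?_ ?_ ?_
    all_goals simp [Crest.WordRAM.step, hh, hi, NC.npc, NC.wk, NC.wv, e1, e2, hra, hrb, h.pc,
      Nat.mod_eq_of_lt hlt]
  | mul d a b =>
    simp only [ifields, Prod.mk.injEq] at hf
    obtain ⟨e1, e2, e3, e4, e5⟩ := hf
    have hra := h.ra_eq e3
    have hrb := h.rb_eq e4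
    refine h.step_reg hop d ((c.regs a * c.regs b) % 2 ^ w) (Nat.mod_lt _ hpow) _ ?_ ?_ ?_ ?_ ?_ ?_
    all_goals simp [Crest.WordRAM.step, hh, hi, NC.npc, NC.wk, NC.wv, e1, e2, hra, hrb, h.pc]
  | quot d a b =>
    simp only [ifields, Prod.mk.injEq] at hf
    obtain ⟨e1, e2, e3, e4, e5⟩ := hf
    have hra := h.ra_eq e3
    have hrb := h.rb_eq e4
    have hlt : c.regs a / c.regs b < 2 ^ w := lt_of_le_of_lt (Nat.div_le_self _ _) (hreg a)
    refine h.step_reg hop d (c.regs a / c.regs b) hlt _ ?_ ?_ ?_ ?_ ?_ ?_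
    all_goals simp [Crest.WordRAM.step, hh, hi, NC.npc, NC.wk, NC.wv, e1, e2, hra, hrb, h.pc,
      Nat.mod_eq_of_lt hlt]
  | rem d a b =>
    simp only [ifields, Prod.mk.injEq] at hf
    obtain ⟨e1, e2, e3, e4, e5⟩ := hf
    have hra := h.ra_eq e3
    have hrb := h.rb_eq e4
    have hlt : c.regs a % c.regs b < 2 ^ w := lt_of_le_of_lt (Nat.mod_le _ _) (hreg a)
    refine h.step_reg hop d (c.regs a % c.regs b) hlt _ ?_ ?_ ?_ ?_ ?_ ?_
    all_goals simp [Crest.WordRAM.step, hh, hi, NC.npc, NC.wk, NC.wv, e1, e2, hra, hrb, h.pc,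
      Nat.mod_eq_of_lt hlt]
  | and d a b =>
    simp only [ifields, Prod.mk.injEq] at hf
    obtain ⟨e1, e2, e3, e4, e5⟩ := hf
    have hra := h.ra_eq e3
    have hrb := h.rb_eq e4
    have hlt : c.regs a &&& c.regs b < 2 ^ w := Nat.and_lt_two_pow _ (hreg b)
    refine h.step_reg hop d (c.regs a &&& c.regs b) hlt _ ?_ ?_ ?_ ?_ ?_ ?_
    all_goals simp [Crest.WordRAM.step, hh, hi, NC.npc, NC.wk, NC.wv, e1, e2, hra, hrb, h.pc,
      Nat.mod_eq_of_lt hlt]
  | or d a b =>
    simp only [ifields, Prod.mk.injEq] at hf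
    obtain ⟨e1, e2, e3, e4, e5⟩ := hf
    have hra := h.ra_eq e3
    have hrb := h.rb_eq e4
    have hlt : c.regs a ||| c.regs b < 2 ^ w := Nat.or_lt_two_pow (hreg a) (hreg b)
    refine h.step_reg hop d (c.regs a ||| c.regs b) hlt _ ?_ ?_ ?_ ?_ ?_ ?_
    all_goals simp [Crest.WordRAM.step, hh, hi, NC.npc, NC.wk, NC.wv, e1, e2, hra, hrb, h.pc,
      Nat.mod_eq_of_lt hlt]
  | xor d a b =>
    simp only [ifields, Prod.mk.injEq] at hf
    obtain ⟨e1, e2, e3, e4, e5⟩ := hf
    have hra := h.ra_eq e3
    have hrb := h.rb_eq e4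
    have hlt : c.regs a ^^^ c.regs b < 2 ^ w := Nat.xor_lt_two_pow (hreg a) (hreg b)
    refine h.step_reg hop d (c.regs a ^^^ c.regs b) hlt _ ?_ ?_ ?_ ?_ ?_ ?_
    all_goals simp [Crest.WordRAM.step, hh, hi, NC.npc, NC.wk, NC.wv, e1, e2, hra, hrb, h.pc,
      Nat.mod_eq_of_lt hlt]
  | shl d a b =>
    simp only [ifields, Prod.mk.injEq] at hf
    obtain ⟨e1, e2, e3, e4, e5⟩ := hf
    have hra := h.ra_eq e3
    have hrb := h.rb_eq e4
    refine h.step_reg hop d (if c.regs b < w then (c.regs a <<< c.regs b) % 2 ^ w else 0) ?_ _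
      ?_ ?_ ?_ ?_ ?_ ?_
    · split_ifs
      · exact Nat.mod_lt _ hpow
      · exact hpow
    all_goals simp [Crest.WordRAM.step, hh, hi, NC.npc, NC.wk, NC.wv, e1, e2, hra, hrb, h.pc,
      Nat.shiftLeft_eq]
    split_ifs <;> simp
  | shr d a b =>
    simp only [ifields, Prod.mk.injEq] at hf
    obtain ⟨e1, e2, e3, e4, e5⟩ := hf
    have hra := h.ra_eq e3
    have hrb := h.rb_eq e4
    have hlt : (if c.regs b < w then c.regs a >>> c.regs b else 0) < 2 ^ w := by
      split_ifs
      · rw [Nat.shiftRight_eq_div_pow]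
        exact lt_of_le_of_lt (Nat.div_le_self _ _) (hreg a)
      · exact hpow
    refine h.step_reg hop d (if c.regs b < w then c.regs a >>> c.regs b else 0) hlt _
      ?_ ?_ ?_ ?_ ?_ ?_
    all_goals simp [Crest.WordRAM.step, hh, hi, NC.npc, NC.wk, NC.wv, e1, e2, hra, hrb, h.pc]
    rw [Nat.shiftRight_eq_div_pow] at hlt ⊢
    exact Nat.mod_eq_of_lt hlt
  | load d a =>
    simp only [ifields, Prod.mk.injEq] at hf
    obtain ⟨e1, e2, e3, e4, e5⟩ := hf
    have hra := h.ra_eq e3
    refine h.step_reg hop d (c.mem (c.regs a)) (h.mem_lt _) _ ?_ ?_ ?_ ?_ ?_ ?_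
    all_goals simp [Crest.WordRAM.step, hh, hi, NC.npc, NC.wk, NC.wv, e1, e2, hra, h.pc, h.mem,
      Nat.mod_eq_of_lt (h.mem_lt _)]
  | store a b =>
    simp only [ifields, Prod.mk.injEq] at hf
    obtain ⟨e1, e2, e3, e4, e5⟩ := hf
    have hra := h.ra_eq e3
    have hrb := h.rb_eq e4
    refine h.step_mem hop (c.regs b) (c.regs a) (hreg a) _ ?_ ?_ ?_ ?_ ?_ ?_
    all_goals simp [Crest.WordRAM.step, hh, hi, NC.npc, NC.wk, NC.wv, e1, hra, hrb, h.pc,
      Nat.mod_eq_of_lt (hreg _)]
  | jump l =>
    simp only [ifields, Prod.mk.injEq] at hf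
    obtain ⟨e1, e2, e3, e4, e5⟩ := hf
    refine h.step_jump hop _ ?_ ?_ ?_ ?_ ?_ ?_
    all_goals simp [Crest.WordRAM.step, hh, hi, NC.npc, NC.wk, NC.wv, e1, e5, h.pc]
  | jumpIfZero a l =>
    simp only [ifields, Prod.mk.injEq] at hf
    obtain ⟨e1, e2, e3, e4, e5⟩ := hf
    have hra := h.ra_eq e3
    refine h.step_jump hop _ ?_ ?_ ?_ ?_ ?_ ?_
    all_goals simp [Crest.WordRAM.step, hh, hi, NC.npc, NC.wk, NC.wv, e1, e5, hra, h.pc]
  | jumpIfEq a b l =>
    simp only [ifields, Prod.mk.injEq] at hf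
    obtain ⟨e1, e2, e3, e4, e5⟩ := hf
    have hra := h.ra_eq e3
    have hrb := h.rb_eq e4
    refine h.step_jump hop _ ?_ ?_ ?_ ?_ ?_ ?_
    all_goals simp [Crest.WordRAM.step, hh, hi, NC.npc, NC.wk, NC.wv, e1, e5, hra, hrb, h.pc]
  | jumpIfLt a b l =>
    simp only [ifields, Prod.mk.injEq] at hf
    obtain ⟨e1, e2, e3, e4, e5⟩ := hf
    have hra := h.ra_eq e3
    have hrb := h.rb_eq e4
    refine h.step_jump hop _ ?_ ?_ ?_ ?_ ?_ ?_
    all_goals simp [Crest.WordRAM.step, hh, hi, NC.npc, NC.wk, NC.wv, e1, e5, hra, hrb, h.pc]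
  | rand d =>
    simp only [ifields, Prod.mk.injEq] at hf
    obtain ⟨e1, e2, e3, e4, e5⟩ := hf
    refine h.step_reg hop d 0 hpow _ ?_ ?_ ?_ ?_ ?_ ?_
    all_goals simp [Crest.WordRAM.step, hh, hi, NC.npc, NC.wk, NC.wv, e1, e2, h.pc]
  | halt =>
    simp only [ifields, Prod.mk.injEq] at hf
    exact absurd hf.1 hop

/-- PROOF. if `n.op = 0` then `P.code[c.pc]?` is `none` or `some halt`, so the RAM sets the halting
flag and changes nothing else. -/
theorem rr_halt (P : Program) (w : ℕ) {c : Cfg P.numRegs} {n : NC}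
    (h : RR P w c n) (hop : n.op = 0) :
    Crest.WordRAM.step P w (fun _ => 0) c = { c with halted := true } := by
  have hh := h.halted
  rcases hi : P.code[c.pc]? with _ | i
  · simp [Crest.WordRAM.step, hh, hi]
  have hf := h.fields hi
  cases i with
  | halt => simp [Crest.WordRAM.step, hh, hi]
  | _ => simp [ifields, hop] at hf

/-- PROOF. `output = [1] ↔ reg 0 = 1 ∧ mem (reg 1) = 1`. -/
theorem rr_out (P : Program) (w : ℕ) {c : Cfg P.numRegs} {n : NC} (h : RR P w c n) :
    (Cfg.output { c with halted := true } = [1] ↔ n.out1) := by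
  have h0 : look n.E 0 = c.reg 0 := h.reg 0
  have h1 : look n.E 7 = c.reg 1 := h.reg 1
  rw [NC.out1, h0, h1, h.mem]
  have e0 : Cfg.reg { c with halted := true } 0 = c.reg 0 := rfl
  have e1 : Cfg.reg { c with halted := true } 1 = c.reg 1 := rfl
  rw [Cfg.output, e0, e1]
  constructor
  · intro h2
    have h3 : c.reg 0 = 1 := by
      have := congrArg List.length h2
      simpa using this
    refine ⟨h3, ?_⟩
    rw [h3] at h2
    simpa using h2
  · rintro ⟨h3, h4⟩
    rw [h3]
    simpa using h4

/-- PROOF. Let `i` be least with `op = 0` at the numeric configuration number `i` (exists and is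
`< t₀`: otherwise by `rr_step` all configurations up to time `t₀` are related, hence not halted).
The RAM configuration number `i` is related, number `i + 1` is halted by `rr_halt`, later ones are
equal to it. -/
theorem run_num (P : Program) (hr : 0 < P.numRegs) (w : ℕ) (x : W) (t₀ : ℕ)
    (h : (run P w (fun _ => 0) (x.map fun b => if b then 1 else 0) t₀).halted = true) :
    ∃ i < t₀, (∀ j < i, ((fun c : NC => c.step w)^[j] (ninit (pents P) w x)).op ≠ 0) ∧
      ((fun c : NC => c.step w)^[i] (ninit (pents P) w x)).op = 0 ∧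
      ((run P w (fun _ => 0) (x.map fun b => if b then 1 else 0) t₀).output = [1] ↔
        ((fun c : NC => c.step w)^[i] (ninit (pents P) w x)).out1) := by
  classical
  set s0 := ninit (pents P) w x with hs0
  set c0 := init P w (x.map fun b => if b then 1 else 0) with hc0
  have hrel : ∀ i, (∀ j < i, ((fun c : NC => c.step w)^[j] s0).op ≠ 0) →
      RR P w ((Crest.WordRAM.step P w (fun _ => 0))^[i] c0) ((fun c : NC => c.step w)^[i] s0) := by
    intro i
    induction i with
    | zero => intro _; exact rr_init P hr w x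
    | succ i ih =>
      intro hj
      rw [Function.iterate_succ_apply', Function.iterate_succ_apply']
      exact rr_step P hr w (ih fun j hj' => hj j (by omega)) (hj i (by omega))
  have hex : ∃ i, i < t₀ ∧ ((fun c : NC => c.step w)^[i] s0).op = 0 := by
    by_contra hno
    push Not at hno
    have h2 := (hrel t₀ hno).halted
    rw [run] at h
    rw [h] at h2
    exact absurd h2 (by simp)
  obtain ⟨i, hi, hmin'⟩ : ∃ i, (i < t₀ ∧ ((fun c : NC => c.step w)^[i] s0).op = 0) ∧
      ∀ j < i, ¬ (j < t₀ ∧ ((fun c : NC => c.step w)^[j] s0).op = 0) :=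
    ⟨Nat.find hex, Nat.find_spec hex, fun j hj => Nat.find_min hex hj⟩
  have hmin : ∀ j < i, ((fun c : NC => c.step w)^[j] s0).op ≠ 0 := by
    intro j hj h3
    exact hmin' j hj ⟨lt_trans hj hi.1, h3⟩
  refine ⟨i, hi.1, hmin, hi.2, ?_⟩
  have hR := hrel i hmin
  have hhalt := rr_halt P w hR hi.2
  have hfix : ∀ m, (Crest.WordRAM.step P w (fun _ => 0))^[m]
      { (Crest.WordRAM.step P w (fun _ => 0))^[i] c0 with halted := true } =
      { (Crest.WordRAM.step P w (fun _ => 0))^[i] c0 with halted := true } := by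
    intro m
    apply Function.iterate_fixed
    simp [Crest.WordRAM.step]
  have hrun : run P w (fun _ => 0) (x.map fun b => if b then 1 else 0) t₀ =
      { (Crest.WordRAM.step P w (fun _ => 0))^[i] c0 with halted := true } := by
    obtain ⟨m, rfl⟩ : ∃ m, t₀ = m + (i + 1) := ⟨t₀ - (i + 1), by omega⟩
    rw [run, Function.iterate_add_apply, Function.iterate_succ_apply', ← hc0, hhalt, hfix]
  rw [hrun]
  exact rr_out P w hR

end Crest.Agent.WLM
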