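import Crest.Agent.WLM.Tab
import Mathlib.Computability.TuringMachine.Computable

/-!
# Row 290, module B: `FinTM2` machines are simulated by structured programs (B2)
-/

set_option autoImplicit false

namespace Crest.Agent.WLM

open Crest.Agent.CHR (Prog St Ev ini mv)
open Crest.Agent.CHR.Prog
open Turing

/-- unary code of a number -/
def uc (i : ℕ) : List Bool := List.replicate i true ++ [false]

theorem uc_succ (i : ℕ) : uc (i + 1) = true :: uc i := by simp [uc, List.replicate_succ]

theorem uc_zero : uc 0 = [false] := rfl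

/-- push the unary code of `i` -/
def pushU (r : ℕ) : ℕ → Prog
  | 0 => .push r false
  | i + 1 => .seq (pushU r i) (.push r true)

theorem ev_pushU (r i : ℕ) (s : St) :
    Ev (pushU r i) s (i + 1) (Function.update s r (uc i ++ s r)) := by
  induction i with
  | zero => exact Ev.push r false s
  | succ i ih =>
    have h := Ev.seq ih (Ev.push r true _)
    rw [Function.update_self, Function.update_idem] at h
    rw [uc_succ]
    exact h

/-- pop a unary number from register `r` and continue with `f` of it -/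
def dec (r : ℕ) (f : ℕ → Prog) : ℕ → ℕ → Prog
  | 0, _ => .skip
  | m + 1, i => .case r .skip (.seq (.pop r) (f i)) (.seq (.pop r) (dec r f m (i + 1)))

theorem ev_dec {r : ℕ} {f : ℕ → Prog} {m i j : ℕ} (hj : j < m) {s s' : St} {x : List Bool} {t : ℕ}
    (hs : s r = uc j ++ x) (h : Ev (f (i + j)) (Function.update s r x) t s') :
    Ev (dec r f m i) s (t + 2 * (j + 1)) s' := by
  induction j generalizing m i s with
  | zero =>
    obtain ⟨m, rfl⟩ : ∃ m', m = m' + 1 := ⟨m - 1, by omega⟩
    rw [uc_zero] at hs
    have hs' : s r = false :: x := hs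
    have h1 := Ev.pop r s
    rw [hs'] at h1
    exact (Ev.case_false hs' (Ev.seq h1 h)).time (by omega)
  | succ j ih =>
    obtain ⟨m, rfl⟩ : ∃ m', m = m' + 1 := ⟨m - 1, by omega⟩
    rw [uc_succ] at hs
    have hs' : s r = true :: (uc j ++ x) := hs
    have h1 := Ev.pop r s
    rw [hs'] at h1
    have h2 := ih (m := m) (i := i + 1) (by omega) (s := Function.update s r (uc j ++ x))
      (by rw [Function.update_self]) (by
        rw [Function.update_idem]
        rw [show i + 1 + j = i + (j + 1) by omega]
        exact h)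
    exact (Ev.case_true hs' (Ev.seq h1 h2)).time (by omega)

section

variable {K : Type} [DecidableEq K] {Γ : K → Type} {Λ σ : Type}

/-- symbols pushed by a statement -/
def occ : TM2.Stmt Γ Λ σ → Set (Σ k, Γ k)
  | .push k f q => Set.range (fun v => (⟨k, f v⟩ : Σ k, Γ k)) ∪ occ q
  | .peek _ _ q => occ q
  | .pop _ _ q => occ q
  | .load _ q => occ q
  | .branch _ q1 q2 => occ q1 ∪ occ q2
  | .goto _ => ∅
  | .halt => ∅

theorem occ_finite [Finite σ] (q : TM2.Stmt Γ Λ σ) : (occ q).Finite := by
  induction q with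
  | push k f q ih => exact (Set.finite_range _).union ih
  | peek k f q ih => exact ih
  | pop k f q ih => exact ih
  | load a q ih => exact ih
  | branch p q1 q2 ih1 ih2 => exact ih1.union ih2
  | goto l => exact Set.finite_empty
  | halt => exact Set.finite_empty

/-- coding data -/
structure Cod (K : Type) (Γ : K → Type) (Λ σ : Type) where
  reg : K → ℕ
  m : ℕ
  idx : (Σ k, Γ k) → ℕ
  sym : (k : K) → ℕ → Option (Γ k)
  M : ℕ
  si : Λ → σ → ℕ
  ist : ℕ → Option (Λ × σ)
  Occ : Set (Σ k, Γ k)
  reg_inj : Function.Injective reg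
  reg_ne : ∀ k, reg k ≠ 0
  idx_lt : ∀ a ∈ Occ, idx a < m
  sym_idx : ∀ k a, (⟨k, a⟩ : Σ k, Γ k) ∈ Occ → sym k (idx ⟨k, a⟩) = some a
  si_lt : ∀ l v, si l v < M
  ist_si : ∀ l v, ist (si l v) = some (l, v)

variable (D : Cod K Γ Λ σ)

/-- compilation of a statement with known internal state -/
def cS : TM2.Stmt Γ Λ σ → σ → Prog
  | .push k f q, v => .seq (pushU (D.reg k) (D.idx ⟨k, f v⟩)) (cS q v)
  | .peek k f q, v =>
    let g : ℕ → Prog := fun i =>
      match D.sym k i with
      | some a => .seq (pushU (D.reg k) i) (cS q (f v (some a)))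
      | none => .skip
    .case (D.reg k) (cS q (f v none)) (dec (D.reg k) g D.m 0) (dec (D.reg k) g D.m 0)
  | .pop k f q, v =>
    let g : ℕ → Prog := fun i =>
      match D.sym k i with
      | some a => cS q (f v (some a))
      | none => .skip
    .case (D.reg k) (cS q (f v none)) (dec (D.reg k) g D.m 0) (dec (D.reg k) g D.m 0)
  | .load a q, v => cS q (a v)
  | .branch p q1 q2, v => if p v then cS q1 v else cS q2 v
  | .goto l, v => pushU 0 (D.si (l v) v)
  | .halt, _ => .skip

/-- size of a statement -/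
def dp : TM2.Stmt Γ Λ σ → ℕ
  | .push _ _ q => 1 + dp q
  | .peek _ _ q => 1 + dp q
  | .pop _ _ q => 1 + dp q
  | .load _ q => 1 + dp q
  | .branch _ q1 q2 => 1 + (dp q1 + dp q2)
  | .goto _ => 1
  | .halt => 1

/-- code of a stack -/
def sc (k : K) (l : List (Γ k)) : List Bool := l.flatMap fun a => uc (D.idx ⟨k, a⟩)

/-- the stacks `S` are stored in `s` -/
structure Rel (S : ∀ k, List (Γ k)) (s : St) : Prop where
  stk : ∀ k, s (D.reg k) = sc D k (S k)
  mem : ∀ k, ∀ a ∈ S k, (⟨k, a⟩ : Σ k, Γ k) ∈ D.Occ
  rest : ∀ r, r ≠ 0 → (∀ k, r ≠ D.reg k) → s r = []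

/-- code of a label with internal state -/
def lc : Option Λ → σ → List Bool
  | none, _ => []
  | some l, v => uc (D.si l v)

theorem Rel.upd {S : ∀ k, List (Γ k)} {s : St} (h : Rel D S s) (k : K) (x : List (Γ k))
    (hx : ∀ a ∈ x, (⟨k, a⟩ : Σ k, Γ k) ∈ D.Occ) :
    Rel D (Function.update S k x) (Function.update s (D.reg k) (sc D k x)) := by
  refine ⟨fun k' => ?_, fun k' a ha => ?_, fun r hr hr' => ?_⟩
  · by_cases hk : k' = k
    · subst hk; simp
    · rw [Function.update_of_ne (fun e => hk (D.reg_inj e)), Function.update_of_ne hk, h.stk]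
  · by_cases hk : k' = k
    · subst hk; simp at ha; exact hx a ha
    · rw [Function.update_of_ne hk] at ha; exact h.mem k' a ha
  · rw [Function.update_of_ne (hr' k)]
    exact h.rest r hr hr'

theorem Rel.zero {S : ∀ k, List (Γ k)} {s : St} (h : Rel D S s) (x : List Bool) :
    Rel D S (Function.update s 0 x) := by
  refine ⟨fun k' => ?_, h.mem, fun r hr hr' => ?_⟩
  · rw [Function.update_of_ne (D.reg_ne k'), h.stk]
  · rw [Function.update_of_ne hr]
    exact h.rest r hr hr'

/-- one statement -/
theorem ev_cS (q : TM2.Stmt Γ Λ σ) (hq : occ q ⊆ D.Occ) (v : σ) (S : ∀ k, List (Γ k)) (s : St)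
    (hR : Rel D S s) (h0 : s 0 = []) :
    ∃ t ≤ dp q * (3 * D.m + D.M + 5), ∃ s', Ev (cS D q v) s t s' ∧
      Rel D (TM2.stepAux q v S).stk s' ∧
      s' 0 = lc D (TM2.stepAux q v S).l (TM2.stepAux q v S).var := by
  induction q generalizing v S s with
  | push k f q ih =>
    have hmem : (⟨k, f v⟩ : Σ k, Γ k) ∈ D.Occ := hq (Or.inl ⟨v, rfl⟩)
    have h1 := ev_pushU (D.reg k) (D.idx ⟨k, f v⟩) s
    have hlt := D.idx_lt _ hmem
    have e1 : uc (D.idx ⟨k, f v⟩) ++ s (D.reg k) = sc D k (f v :: S k) := by
      rw [hR.stk]; simp [sc]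
    rw [e1] at h1
    obtain ⟨t, ht, s', h2, hR', h0'⟩ := ih (fun a ha => hq (Or.inr ha)) v
      (Function.update S k (f v :: S k)) _ (hR.upd D k (f v :: S k) (by
        intro a ha
        rcases List.mem_cons.1 ha with rfl | ha
        · exact hmem
        · exact hR.mem k a ha)) (by rw [Function.update_of_ne (D.reg_ne k).symm, h0])
    refine ⟨_, ?_, s', Ev.seq h1 h2, hR', h0'⟩
    simp only [dp]
    nlinarith
  | peek k f q ih =>
    cases hS : S k with
    | nil =>
      have hs : s (D.reg k) = [] := by rw [hR.stk, hS]; rfl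
      obtain ⟨t, ht, s', h2, hR', h0'⟩ := ih hq (f v none) S s hR h0
      refine ⟨t + 1, ?_, s', Ev.case_nil hs h2, ?_, ?_⟩
      · simp only [dp]; nlinarith
      · simp only [TM2.stepAux, hS, List.head?_nil]; exact hR'
      · simp only [TM2.stepAux, hS, List.head?_nil]; exact h0'
    | cons a l =>
      have hmem := hR.mem k a (by rw [hS]; simp)
      have hlt := D.idx_lt _ hmem
      have hs : s (D.reg k) = uc (D.idx ⟨k, a⟩) ++ sc D k l := by rw [hR.stk, hS]; simp [sc]
      obtain ⟨t, ht, s', h2, hR', h0'⟩ := ih hq (f v (some a)) S s hR h0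
      have h3 := ev_pushU (D.reg k) (D.idx ⟨k, a⟩) (Function.update s (D.reg k) (sc D k l))
      rw [Function.update_self, Function.update_idem, ← hs, Function.update_eq_self] at h3
      let g : ℕ → Prog := fun i =>
        match D.sym k i with
        | some a => .seq (pushU (D.reg k) i) (cS D q (f v (some a)))
        | none => .skip
      have hg : g (0 + D.idx ⟨k, a⟩) =
          .seq (pushU (D.reg k) (D.idx ⟨k, a⟩)) (cS D q (f v (some a))) := by
        simp only [g, Nat.zero_add, D.sym_idx k a hmem]
      have h4 := ev_dec (f := g) (m := D.m) (i := 0) hlt hs (hg ▸ Ev.seq h3 h2)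
      refine ⟨D.idx ⟨k, a⟩ + 1 + t + 2 * (D.idx ⟨k, a⟩ + 1) + 1, ?_, s', ?_, ?_, ?_⟩
      · simp only [dp]; nlinarith
      · have hne : ∃ b x, s (D.reg k) = b :: x := by
          cases hsr : s (D.reg k) with
          | nil => rw [hsr] at hs; simp [uc] at hs
          | cons b x => exact ⟨b, x, rfl⟩
        obtain ⟨b, x, hbx⟩ := hne
        cases b with
        | false => exact Ev.case_false hbx h4
        | true => exact Ev.case_true hbx h4
      · simp only [TM2.stepAux, hS, List.head?_cons]; exact hR'
      · simp only [TM2.stepAux, hS, List.head?_cons]; exact h0'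
  | pop k f q ih =>
    cases hS : S k with
    | nil =>
      have hs : s (D.reg k) = [] := by rw [hR.stk, hS]; rfl
      have hu : Function.update S k [] = S := by rw [← hS]; exact Function.update_eq_self k S
      obtain ⟨t, ht, s', h2, hR', h0'⟩ := ih hq (f v none) S s hR h0
      refine ⟨t + 1, ?_, s', Ev.case_nil hs h2, ?_, ?_⟩
      · simp only [dp]; nlinarith
      · simp only [TM2.stepAux, hS, List.head?_nil, List.tail_nil, hu]; exact hR'
      · simp only [TM2.stepAux, hS, List.head?_nil, List.tail_nil, hu]; exact h0'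
    | cons a l =>
      have hmem := hR.mem k a (by rw [hS]; simp)
      have hlt := D.idx_lt _ hmem
      have hs : s (D.reg k) = uc (D.idx ⟨k, a⟩) ++ sc D k l := by rw [hR.stk, hS]; simp [sc]
      obtain ⟨t, ht, s', h2, hR', h0'⟩ := ih hq (f v (some a)) (Function.update S k l) _
        (hR.upd D k l (fun b hb => hR.mem k b (by rw [hS]; simp [hb])))
        (by rw [Function.update_of_ne (D.reg_ne k).symm, h0])
      let g : ℕ → Prog := fun i =>
        match D.sym k i with
        | some a => cS D q (f v (some a))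
        | none => .skip
      have hg : g (0 + D.idx ⟨k, a⟩) = cS D q (f v (some a)) := by
        simp only [g, Nat.zero_add, D.sym_idx k a hmem]
      have h4 := ev_dec (f := g) (m := D.m) (i := 0) hlt hs (hg ▸ h2)
      refine ⟨t + 2 * (D.idx ⟨k, a⟩ + 1) + 1, ?_, s', ?_, ?_, ?_⟩
      · simp only [dp]; nlinarith
      · have hne : ∃ b x, s (D.reg k) = b :: x := by
          cases hsr : s (D.reg k) with
          | nil => rw [hsr] at hs; simp [uc] at hs
          | cons b x => exact ⟨b, x, rfl⟩
        obtain ⟨b, x, hbx⟩ := hne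
        cases b with
        | false => exact Ev.case_false hbx h4
        | true => exact Ev.case_true hbx h4
      · simp only [TM2.stepAux, hS, List.head?_cons, List.tail_cons]; exact hR'
      · simp only [TM2.stepAux, hS, List.head?_cons, List.tail_cons]; exact h0'
  | load a q ih =>
    obtain ⟨t, ht, s', h2, hR', h0'⟩ := ih hq (a v) S s hR h0
    exact ⟨t, by simp only [dp]; nlinarith, s', h2, hR', h0'⟩
  | branch p q1 q2 ih1 ih2 =>
    by_cases hp : p v = true
    · obtain ⟨t, ht, s', h2, hR', h0'⟩ := ih1 (fun a ha => hq (Or.inl ha)) v S s hR h0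
      refine ⟨t, by simp only [dp]; nlinarith, s', ?_, ?_, ?_⟩
      · simp only [cS, hp, if_true]; exact h2
      · simp only [TM2.stepAux, hp, cond_true]; exact hR'
      · simp only [TM2.stepAux, hp, cond_true]; exact h0'
    · have hp' : p v = false := by simpa using hp
      obtain ⟨t, ht, s', h2, hR', h0'⟩ := ih2 (fun a ha => hq (Or.inr ha)) v S s hR h0
      refine ⟨t, by simp only [dp]; nlinarith, s', ?_, ?_, ?_⟩
      · simp only [cS, hp', Bool.false_eq_true, if_false]; exact h2
      · simp only [TM2.stepAux, hp', cond_false]; exact hR'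
      · simp only [TM2.stepAux, hp', cond_false]; exact h0'
  | goto l =>
    have h1 := ev_pushU 0 (D.si (l v) v) s
    have hlt := D.si_lt (l v) v
    refine ⟨_, ?_, _, h1, hR.zero D _, ?_⟩
    · simp only [dp]; nlinarith
    · rw [Function.update_self, h0]; simp [TM2.stepAux, lc]
  | halt =>
    refine ⟨1, ?_, s, Ev.skip s, hR, ?_⟩
    · simp only [dp]; nlinarith
    · rw [h0]; rfl

end

end Crest.Agent.WLM
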