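import Crest.Agent.WLM.TM2

/-!
# Row 290, module B: `FinTM2` machines are simulated by structured programs (B2), part 2
-/

set_option autoImplicit false

namespace Crest.Agent.WLM

open Crest.Agent.CHR (Prog St Ev ini mv)
open Crest.Agent.CHR.Prog
open Turing

section

variable {K : Type} [DecidableEq K] {Γ : K → Type} {Λ σ : Type} (D : Cod K Γ Λ σ)

/-- one branch of the main loop -/
def bodyF (m : Λ → TM2.Stmt Γ Λ σ) (j : ℕ) : Prog :=
  match D.ist j with
  | some lv => cS D (m lv.1) lv.2
  | none => .skip

/-- body of the main loop -/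
def body (m : Λ → TM2.Stmt Γ Λ σ) : Prog := dec 0 (bodyF D m) D.M 0

theorem bind_none {α : Type} (f : α → Option α) (n : ℕ) : (flip bind f)^[n] none = none := by
  induction n with
  | zero => rfl
  | succ n ih => rw [Function.iterate_succ_apply]; exact ih

theorem ev_run (m : Λ → TM2.Stmt Γ Λ σ) (hm : ∀ l, occ (m l) ⊆ D.Occ) (B : ℕ)
    (hB : ∀ l, dp (m l) ≤ B) (n : ℕ) (c c' : TM2.Cfg Γ Λ σ)
    (h : (flip bind (TM2.step m))^[n] (some c) = some c') (hc' : c'.l = none) (s : St)
    (hR : Rel D c.stk s) (h0 : s 0 = lc D c.l c.var) :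
    ∃ t ≤ n * (B * (3 * D.m + D.M + 5) + 2 * D.M + 1) + 1, ∃ s',
      Ev (.loop 0 (body D m)) s t s' ∧ Rel D c'.stk s' ∧ s' 0 = [] := by
  induction n generalizing c s with
  | zero =>
    have e : c = c' := by simpa using h
    subst e
    have hs0 : s 0 = [] := by rw [h0, hc']; rfl
    exact ⟨1, by omega, s, Ev.loop_done hs0, hR, hs0⟩
  | succ n ih =>
    rw [Function.iterate_succ_apply] at h
    rcases c with ⟨_ | l, v, S⟩
    · have : flip bind (TM2.step m) (some ⟨none, v, S⟩) = none := rfl
      rw [this, bind_none] at h
      cases h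
    · have e : flip bind (TM2.step m) (some ⟨some l, v, S⟩) = some (TM2.stepAux (m l) v S) := rfl
      rw [e] at h
      have h0' : s 0 = uc (D.si l v) ++ [] := by rw [h0]; simp [lc]
      obtain ⟨t1, ht1, s1, h1, hR1, h01⟩ := ev_cS D (m l) (hm l) v S (Function.update s 0 [])
        (hR.zero D []) (by rw [Function.update_self])
      have hf : bodyF D m (0 + D.si l v) = cS D (m l) v := by
        simp only [bodyF, Nat.zero_add, D.ist_si]
      rw [← hf] at h1
      have h2 : Ev (body D m) s (t1 + 2 * (D.si l v + 1)) s1 :=
        ev_dec (D.si_lt l v) h0' h1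
      obtain ⟨t3, ht3, s3, h3, hR3, h03⟩ := ih _ h s1 hR1 h01
      have hne : s 0 ≠ [] := by rw [h0']; simp [uc]
      refine ⟨_, ?_, s3, Ev.loop_step hne h2 h3, hR3, h03⟩
      have h4 := D.si_lt l v
      have h5 : dp (m l) * (3 * D.m + D.M + 5) ≤ B * (3 * D.m + D.M + 5) :=
        Nat.mul_le_mul_right _ (hB l)
      have h6 : (n + 1) * (B * (3 * D.m + D.M + 5) + 2 * D.M + 1) =
        n * (B * (3 * D.m + D.M + 5) + 2 * D.M + 1) + (B * (3 * D.m + D.M + 5) + 2 * D.M + 1) := by
        ring
      omega

/-- conversion of the input: from register `aux` (reversed) to register `r0` -/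
def conv (aux r0 : ℕ) (i : Bool → ℕ) : Prog :=
  .loop aux (.case aux .skip (.seq (.pop aux) (pushU r0 (i false))) (.seq (.pop aux) (pushU r0 (i true))))

omit [DecidableEq K] in
theorem ev_conv {aux r0 : ℕ} (hne : aux ≠ r0) (i : Bool → ℕ) (m : ℕ) (hi : ∀ b, i b < m)
    (s : St) : ∃ t ≤ (s aux).length * (m + 3) + 1, Ev (conv aux r0 i) s t
      (Function.update (Function.update s aux []) r0
        ((s aux).reverse.flatMap (fun b => uc (i b)) ++ s r0)) := by
  generalize hl : s aux = l
  induction l generalizing s with
  | nil =>
    have e : Function.update s aux [] = s := by rw [← hl]; exact Function.update_eq_self aux s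
    rw [e]
    refine ⟨1, by omega, ?_⟩
    have : Function.update s r0 (([] : List Bool).reverse.flatMap (fun b => uc (i b)) ++ s r0) = s := by
      simp
    rw [this]
    exact Ev.loop_done hl
  | cons b l ih =>
    set s1 := Function.update s aux l with hs1
    set s2 := Function.update s1 r0 (uc (i b) ++ s1 r0) with hs2
    have h1 : Ev (.pop aux) s 1 s1 := by
      have := Ev.pop aux s
      rw [hl] at this
      exact this
    have h2 : Ev (pushU r0 (i b)) s1 (i b + 1) s2 := ev_pushU r0 (i b) s1
    obtain ⟨t3, ht3, h3⟩ := ih s2 (by rw [hs2, Function.update_of_ne hne, hs1, Function.update_self])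
    have h4 : Ev (.case aux .skip (.seq (.pop aux) (pushU r0 (i false)))
        (.seq (.pop aux) (pushU r0 (i true)))) s (1 + (i b + 1) + 1) s2 := by
      cases b with
      | false => exact Ev.case_false hl (Ev.seq h1 h2)
      | true => exact Ev.case_true hl (Ev.seq h1 h2)
    have e1 : s2 r0 = uc (i b) ++ s r0 := by
      rw [hs2, Function.update_self, hs1, Function.update_of_ne hne.symm]
    have e2 : Function.update (Function.update s2 aux []) r0
        (l.reverse.flatMap (fun b => uc (i b)) ++ s2 r0) =
        Function.update (Function.update s aux []) r0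
        ((b :: l).reverse.flatMap (fun b => uc (i b)) ++ s r0) := by
      rw [e1, hs2, hs1]
      funext r
      by_cases hr0 : r = r0
      · subst hr0
        simp [List.flatMap_append]
      · rw [Function.update_of_ne hr0, Function.update_of_ne hr0]
        by_cases hra : r = aux
        · subst hra; simp
        · rw [Function.update_of_ne hra, Function.update_of_ne hra, Function.update_of_ne hr0,
            Function.update_of_ne hra]
    rw [e2] at h3
    refine ⟨_, ?_, Ev.loop_step (by rw [hl]; simp) h4 h3⟩
    have := hi b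
    simp only [List.length_cons]
    nlinarith

/-- output of one symbol -/
def outF (aux : ℕ) (k : K) (oa : Γ k → Bool) (i : ℕ) : Prog :=
  match D.sym k i with
  | some a => .push aux (oa a)
  | none => .skip

/-- output of the symbols of stack `k`, reversed, in register `aux` -/
def outp (aux : ℕ) (k : K) (oa : Γ k → Bool) : Prog :=
  .loop (D.reg k) (dec (D.reg k) (outF D aux k oa) D.m 0)

theorem ev_outp {aux : ℕ} {k : K} (hne : aux ≠ D.reg k) (oa : Γ k → Bool) (l : List (Γ k))
    (hl : ∀ a ∈ l, (⟨k, a⟩ : Σ k, Γ k) ∈ D.Occ) (s : St) (hs : s (D.reg k) = sc D k l) :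
    ∃ t ≤ l.length * (2 * D.m + 2) + 1, Ev (outp D aux k oa) s t
      (Function.update (Function.update s (D.reg k) []) aux ((l.map oa).reverse ++ s aux)) := by
  induction l generalizing s with
  | nil =>
    have hs' : s (D.reg k) = [] := hs
    have e : Function.update s (D.reg k) [] = s := by
      rw [← hs']; exact Function.update_eq_self _ s
    refine ⟨1, by omega, ?_⟩
    rw [e]
    have : Function.update s aux ((([] : List (Γ k)).map oa).reverse ++ s aux) = s := by simp
    rw [this]
    exact Ev.loop_done hs'
  | cons a l ih =>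
    have hmem := hl a (by simp)
    have hlt := D.idx_lt _ hmem
    have hs' : s (D.reg k) = uc (D.idx ⟨k, a⟩) ++ sc D k l := by rw [hs]; simp [sc]
    set s1 := Function.update s (D.reg k) (sc D k l) with hs1
    set s2 := Function.update s1 aux (oa a :: s1 aux) with hs2
    have h1 : Ev (.push aux (oa a)) s1 1 s2 := Ev.push aux (oa a) s1
    have hf : outF D aux k oa (0 + D.idx ⟨k, a⟩) = Prog.push aux (oa a) := by
      simp only [outF, Nat.zero_add, D.sym_idx k a hmem]
    rw [← hf] at h1
    have h2 := ev_dec (m := D.m) (i := 0) hlt hs' h1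
    obtain ⟨t3, ht3, h3⟩ := ih (fun b hb => hl b (by simp [hb])) s2
      (by rw [hs2, Function.update_of_ne hne.symm, hs1, Function.update_self])
    have e1 : s2 aux = oa a :: s aux := by
      rw [hs2, Function.update_self, hs1, Function.update_of_ne hne]
    have e2 : Function.update (Function.update s2 (D.reg k) []) aux ((l.map oa).reverse ++ s2 aux) =
        Function.update (Function.update s (D.reg k) []) aux (((a :: l).map oa).reverse ++ s aux) := by
      rw [e1, hs2, hs1]
      funext r
      by_cases hr0 : r = aux
      · subst hr0; simp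
      · rw [Function.update_of_ne hr0, Function.update_of_ne hr0]
        by_cases hra : r = D.reg k
        · subst hra; simp
        · rw [Function.update_of_ne hra, Function.update_of_ne hra, Function.update_of_ne hr0,
            Function.update_of_ne hra]
    rw [e2] at h3
    have hne' : s (D.reg k) ≠ [] := by rw [hs']; simp [uc]
    refine ⟨_, ?_, Ev.loop_step hne' h2 h3⟩
    simp only [List.length_cons]
    nlinarith

end

end Crest.Agent.WLM
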